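import Vale.Agent.P032.S5.Lam

/-!
# P032: apex covers

`K` is an upper semicontinuous palette, `Z` a compact set of exceptional points.  `apx K Z δ h` is
the palette which near `Z` (distance less than `δ`) has the single colour `h z`, on the boundary
`K w` and `h z`, and is `K` elsewhere.  If the new palettes have at most three colours then the
state `lamS` of `apx K Z δ h` does not depend on `δ` and `h`.
-/

open Set Filter Topology Metric Complex

noncomputable section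

namespace Vale.Agent.P032.Carr

open Vale.Agent.P032.S5

variable {K K' : ℂ → Set (Fin 6)} {Z : Set ℂ} {δ δ' : ℝ} {h h' : ℂ → Fin 6} {x : ℂ} {a : Fin 6}

/-! ### comparison of covers -/

theorem lamS_mono (h1 : Nice K x) (h2 : Nice K' x) (hsub : ∀ y ∈ closedBall x 1, K y ⊆ K' y)
    (ha : Av K x a) {s : Finset (Fin 6)} (has : a ∈ s) : lamS K a x s = lamS K' a x s := by
  have hS : ∀ y, dist y x = 1 → y ∈ closedBall x 1 := fun y hy => mem_closedBall.2 hy.le
  have ha' : Av K' x a := fun y hy => (ha y hy).imp fun b hb => ⟨hsub y (hS y hy) hb.1, hb.2⟩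
  obtain ⟨δ1, hδ1, e1⟩ := lamS_spec h1 ha has
  obtain ⟨δ2, hδ2, e2⟩ := lamS_spec h2 ha' has
  obtain ⟨J, hJ⟩ := exists_level (lt_min hδ1 hδ2)
  obtain ⟨c, b, hc, hb⟩ := exists_sel h1.ne (x := x) (A := {a}) (fun y hy => by
    simpa using ha y hy)
  have l1 : Lb K x δ1 J (sl x c b J) := sl_Lb (fun p _ => hc p) (fun p hp => (hb p hp).1) hδ1 J
  have l2 : Lb K' x δ2 J (sl x c b J) :=
    sl_Lb (fun p hp => hsub p hp (hc p)) (fun p hp => hsub p (hS p hp) (hb p hp).1) hδ2 J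
  have hring : ∀ k ≤ 6 * 2 ^ J, sl x c b J (2 ^ J) k ≠ a := fun k _ => by
    rw [sl_ring]
    exact (hb _ (pt_ring x J k)).2
  rw [← e1 J (hJ.trans_le (min_le_left _ _)) _ l1 hring,
    ← e2 J (hJ.trans_le (min_le_right _ _)) _ l2 hring]

theorem lamS_union (h1 : Nice K x) (h2 : Nice K' x)
    (h3 : ∀ u ∈ closedBall x 1, (K u ∪ K' u).ncard ≤ 3) (ha : Av K x a) (ha' : Av K' x a)
    {s : Finset (Fin 6)} (has : a ∈ s) : lamS K a x s = lamS K' a x s := by
  have hU : Nice (fun y => K y ∪ K' y) x := by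
    refine ⟨fun y => ?_, fun y => ?_, h3⟩
    · filter_upwards [h1.usc y, h2.usc y] with w hw hw'
      exact union_subset_union hw hw'
    · obtain ⟨i, hi⟩ := h1.ne y
      exact ⟨i, Or.inl hi⟩
  rw [lamS_mono h1 hU (fun y _ => subset_union_left) ha has,
    lamS_mono h2 hU (fun y _ => subset_union_right) ha' has]

/-! ### apex covers -/

/-- the apex cover -/
def apx (K : ℂ → Set (Fin 6)) (Z : Set ℂ) (δ : ℝ) (h : ℂ → Fin 6) (w : ℂ) : Set (Fin 6) :=
  {i | (i ∈ K w ∧ ∀ z ∈ Z, δ ≤ dist w z) ∨ ∃ z ∈ Z, dist w z ≤ δ ∧ h z = i}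

/-- an admissible scale for the apex function `h` -/
structure Sc (K : ℂ → Set (Fin 6)) (Z : Set ℂ) (δ : ℝ) (h : ℂ → Fin 6) : Prop where
  pos : 0 < δ
  loc : ∀ z ∈ Z, ∀ z' ∈ Z, dist z z' ≤ 2 * δ → h z = h z'
  face : ∀ z ∈ Z, ∀ w, dist w z ≤ δ → w ∉ Z → (insert (h z) (K w)).ncard ≤ 3

theorem closed_of_usc (hK : ∀ y, ∀ᶠ z in 𝓝 y, K z ⊆ K y) (i : Fin 6) : IsClosed {w | i ∈ K w} := by
  rw [← isOpen_compl_iff, isOpen_iff_mem_nhds]
  intro y hy
  filter_upwards [hK y] with z hz hi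
  exact hy (hz hi)

theorem usc_of_closed (hK : ∀ i, IsClosed {w | i ∈ K w}) (y : ℂ) : ∀ᶠ z in 𝓝 y, K z ⊆ K y := by
  have h1 : ∀ i, ∀ᶠ z in 𝓝 y, i ∈ K z → i ∈ K y := by
    intro i
    by_cases hi : i ∈ K y
    · exact Eventually.of_forall fun _ _ => hi
    · filter_upwards [(hK i).isOpen_compl.mem_nhds (show y ∈ {w | i ∈ K w}ᶜ from hi)] with z hz hz'
      exact absurd hz' hz
  filter_upwards [eventually_all.2 h1] with z hz i hi
  exact hz i hi

theorem Sc.closed (S : Sc K Z δ h) (hZ : IsCompact Z) (hK : ∀ y, ∀ᶠ z in 𝓝 y, K z ⊆ K y)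
    (i : Fin 6) : IsClosed {w | i ∈ apx K Z δ h w} := by
  have hZi : IsCompact {z | z ∈ Z ∧ h z = i} := by
    refine hZ.of_isClosed_subset ?_ fun z hz => hz.1
    rw [← isOpen_compl_iff, isOpen_iff_mem_nhds]
    intro y hy
    by_cases hyZ : y ∈ Z
    · filter_upwards [ball_mem_nhds y S.pos] with z hz hzZ
      have h1 : h y = h z := S.loc y hyZ z hzZ.1 (by
        rw [dist_comm]
        have := mem_ball.1 hz
        have := S.pos
        linarith)
      exact hy ⟨hyZ, h1.trans hzZ.2⟩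
    · filter_upwards [hZ.isClosed.isOpen_compl.mem_nhds hyZ] with z hz hzZ
      exact hz hzZ.1
  have e : {w | i ∈ apx K Z δ h w} =
      ({w | i ∈ K w} ∩ ⋂ z ∈ Z, {w | δ ≤ dist w z}) ∪ cthickening δ {z | z ∈ Z ∧ h z = i} := by
    rw [hZi.cthickening_eq_biUnion_closedBall S.pos.le]
    ext w
    simp only [apx, mem_ofPred_eq, mem_union, mem_inter_iff, mem_iInter, mem_iUnion,
      mem_closedBall, exists_prop]
    constructor
    · rintro (⟨h1, h2⟩ | ⟨z, hz, h1, h2⟩)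
      · exact Or.inl ⟨h1, h2⟩
      · exact Or.inr ⟨z, ⟨hz, h2⟩, h1⟩
    · rintro (⟨h1, h2⟩ | ⟨z, ⟨hz, h2⟩, h1⟩)
      · exact Or.inl ⟨h1, h2⟩
      · exact Or.inr ⟨z, hz, h1, h2⟩
  rw [e]
  exact ((closed_of_usc hK i).inter (isClosed_biInter fun z _ =>
    isClosed_le continuous_const (continuous_id.dist continuous_const))).union isClosed_cthickening

theorem apx_ne (hne : ∀ y, ∃ i, i ∈ K y) (y : ℂ) : ∃ i, i ∈ apx K Z δ h y := by
  by_cases hy : ∃ z ∈ Z, dist y z < δ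
  · obtain ⟨z, hz, hyz⟩ := hy
    exact ⟨h z, Or.inr ⟨z, hz, hyz.le, rfl⟩⟩
  · push Not at hy
    obtain ⟨i, hi⟩ := hne y
    exact ⟨i, Or.inl ⟨hi, hy⟩⟩

/-- near an exceptional point the apex cover has the colours of `K` and the apex -/
theorem Sc.sub (S : Sc K Z δ h) {z u : ℂ} (hz : z ∈ Z) (hu : dist u z ≤ δ) :
    apx K Z δ h u ⊆ insert (h z) (K u) := by
  rintro i (⟨hi, -⟩ | ⟨z', hz', h1, rfl⟩)
  · exact Or.inr hi
  · left
    refine S.loc z' hz' z hz ?_
    have := dist_triangle_left z' z u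
    linarith

theorem Sc.sub_Z (S : Sc K Z δ h) {z : ℂ} (hz : z ∈ Z) : apx K Z δ h z ⊆ {h z} := by
  rintro i (⟨-, hi⟩ | ⟨z', hz', h1, rfl⟩)
  · have := hi z hz
    rw [dist_self] at this
    exact absurd S.pos (not_lt.2 this)
  · refine S.loc z' hz' z hz ?_
    rw [dist_comm] at h1
    have := S.pos
    linarith

theorem apx_far {u : ℂ} (hu : ∀ z ∈ Z, δ < dist u z) : apx K Z δ h u = K u := by
  ext i
  constructor
  · rintro (⟨hi, -⟩ | ⟨z', hz', h1, rfl⟩)
    · exact hi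
    · exact absurd h1 (not_le.2 (hu z' hz'))
  · exact fun hi => Or.inl ⟨hi, fun z hz => (hu z hz).le⟩

theorem Sc.three (S : Sc K Z δ h) {u : ℂ} (h3 : u ∉ Z → (K u).ncard ≤ 3) :
    (apx K Z δ h u).ncard ≤ 3 := by
  by_cases hu : u ∈ Z
  · have := Set.ncard_le_ncard (S.sub_Z hu) (Set.toFinite _)
    rw [Set.ncard_singleton] at this
    omega
  · by_cases hn : ∃ z ∈ Z, dist u z ≤ δ
    · obtain ⟨z, hz, huz⟩ := hn
      exact (Set.ncard_le_ncard (S.sub hz huz) (Set.toFinite _)).trans (S.face z hz u huz hu)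
    · push Not at hn
      rw [apx_far hn]
      exact h3 hu

theorem Sc.nice (S : Sc K Z δ h) (hZ : IsCompact Z) (hK : ∀ y, ∀ᶠ z in 𝓝 y, K z ⊆ K y)
    (hne : ∀ y, ∃ i, i ∈ K y) (h3 : ∀ u ∈ closedBall x 1, u ∉ Z → (K u).ncard ≤ 3) :
    Nice (apx K Z δ h) x :=
  ⟨usc_of_closed (S.closed hZ hK), apx_ne hne, fun u hu => S.three (h3 u hu)⟩

/-- the colour `a` can be avoided on the circle -/
theorem Av_apx (ha : Av K x a) (hh : ∀ z ∈ Z, (∃ y, dist y x = 1 ∧ dist y z ≤ δ) → h z ≠ a) :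
    Av (apx K Z δ h) x a := by
  intro y hy
  by_cases hn : ∃ z ∈ Z, dist y z ≤ δ
  · obtain ⟨z, hz, hyz⟩ := hn
    exact ⟨h z, Or.inr ⟨z, hz, hyz, rfl⟩, hh z hz ⟨y, hy, hyz⟩⟩
  · push Not at hn
    rw [apx_far hn]
    exact ha y hy

/-- the state does not depend on the scale and on the apexes -/
theorem Sc.eq (S : Sc K Z δ h) (S' : Sc K Z δ' h') (hZ : IsCompact Z)
    (hK : ∀ y, ∀ᶠ z in 𝓝 y, K z ⊆ K y) (hne : ∀ y, ∃ i, i ∈ K y)
    (h3 : ∀ u ∈ closedBall x 1, u ∉ Z → (K u).ncard ≤ 3)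
    (hU : ∀ z ∈ Z, ∀ z' ∈ Z, ∀ w, dist w z ≤ δ → dist w z' ≤ δ' → w ∉ Z →
      (insert (h z) (insert (h' z') (K w))).ncard ≤ 3)
    (ha : Av (apx K Z δ h) x a) (ha' : Av (apx K Z δ' h') x a) {s : Finset (Fin 6)} (has : a ∈ s) :
    lamS (apx K Z δ h) a x s = lamS (apx K Z δ' h') a x s := by
  refine lamS_union (S.nice hZ hK hne h3) (S'.nice hZ hK hne h3) (fun u hu => ?_) ha ha' has
  by_cases huZ : u ∈ Z
  · have h1 : apx K Z δ h u ∪ apx K Z δ' h' u ⊆ {h u, h' u} :=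
      union_subset ((S.sub_Z huZ).trans (by simp)) ((S'.sub_Z huZ).trans (by simp))
    have h2 := Set.ncard_le_ncard h1 (Set.toFinite _)
    have h3 : ({h u, h' u} : Set (Fin 6)).ncard ≤ 2 := by
      have := Set.ncard_insert_le (h u) ({h' u} : Set (Fin 6))
      rw [Set.ncard_singleton] at this
      exact this
    omega
  · by_cases hn : ∃ z ∈ Z, dist u z ≤ δ
    · obtain ⟨z, hz, huz⟩ := hn
      by_cases hn' : ∃ z' ∈ Z, dist u z' ≤ δ'
      · obtain ⟨z', hz', huz'⟩ := hn'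
        refine (Set.ncard_le_ncard (union_subset ((S.sub hz huz).trans ?_)
          ((S'.sub hz' huz').trans ?_)) (Set.toFinite _)).trans (hU z hz z' hz' u huz huz' huZ)
        · exact insert_subset_insert (subset_insert _ _)
        · exact subset_insert _ _
      · push Not at hn'
        rw [apx_far hn']
        refine (Set.ncard_le_ncard (union_subset (S.sub hz huz) (subset_insert _ _))
          (Set.toFinite _)).trans (S.face z hz u huz huZ)
    · push Not at hn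
      rw [apx_far hn]
      by_cases hn' : ∃ z' ∈ Z, dist u z' ≤ δ'
      · obtain ⟨z', hz', huz'⟩ := hn'
        refine (Set.ncard_le_ncard (union_subset (subset_insert _ _) (S'.sub hz' huz'))
          (Set.toFinite _)).trans (S'.face z' hz' u huz' huZ)
      · push Not at hn'
        rw [apx_far hn', union_self]
        exact h3 u hu huZ

end Vale.Agent.P032.Carr
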