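import Vale.Agent.P032.Carr.Supp
import Vale.Agent.P032.S5.LamK
import Vale.Agent.P032.S5.H483.IrrZ

/-!
# P032: the state in the frame `Irr U T` with harmless four-coloured points
-/

open Set Filter Topology Metric

noncomputable section

namespace Vale.Agent.P032.Carr

open Vale.Agent.P032.S5 Vale.Agent.P032.Six

/-! ### frame-free part -/

section free

variable {K : ℂ → Set (Fin 6)} {Z : Set ℂ} {f : ℂ → Set (Fin 6)} {δ δ₀ : ℝ} {x : ℂ} {a : Fin 6}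

open Classical in
/-- the state as a function of three colours -/
def lamT (K : ℂ → Set (Fin 6)) (Z : Set ℂ) (f : ℂ → Set (Fin 6)) (δ₀ : ℝ) (a : Fin 6) (x : ℂ)
    (b c : Fin 6) : ZMod 2 :=
  if a ≠ b ∧ a ≠ c ∧ b ≠ c then lamH K Z f δ₀ a x {a, b, c} else 0

theorem lamT_eq {a b c : Fin 6} (h : a ≠ b ∧ a ≠ c ∧ b ≠ c) (x : ℂ) :
    lamT K Z f δ₀ a x b c = lamH K Z f δ₀ a x {a, b, c} := if_pos h

theorem lamT_ne {a b c : Fin 6} (h : ¬ (a ≠ b ∧ a ≠ c ∧ b ≠ c)) (x : ℂ) :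
    lamT K Z f δ₀ a x b c = 0 := if_neg h

theorem lamT_symm (a : Fin 6) (x : ℂ) (b c : Fin 6) :
    lamT K Z f δ₀ a x b c = lamT K Z f δ₀ a x c b := by
  by_cases h : a ≠ b ∧ a ≠ c ∧ b ≠ c
  · rw [lamT_eq h, lamT_eq ⟨h.2.1, h.1, h.2.2.symm⟩, Finset.pair_comm b c]
  · rw [lamT_ne h, lamT_ne fun h' => h ⟨h'.2.1, h'.1, h'.2.2.symm⟩]

theorem lamT_diag (a : Fin 6) (x : ℂ) (b : Fin 6) : lamT K Z f δ₀ a x b b = 0 :=
  lamT_ne (fun h => h.2.2 rfl) x

theorem lamT_self (a : Fin 6) (x : ℂ) (b : Fin 6) : lamT K Z f δ₀ a x a b = 0 :=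
  lamT_ne (fun h => h.1 rfl) x

theorem Hm.loc_T (H : Hm K Z f δ₀) (hr : Rg K Z x) (ha : Av K x a) :
    ∀ᶠ x' in 𝓝 x, Av K x' a → lamT K Z f δ₀ a x' = lamT K Z f δ₀ a x := by
  filter_upwards [H.loc hr ha] with x' hx' hax'
  funext b c
  by_cases h : a ≠ b ∧ a ≠ c ∧ b ≠ c
  · rw [lamT_eq h, lamT_eq h]
    exact hx' hax' _ (by simp)
  · rw [lamT_ne h, lamT_ne h]

theorem Hm.euler_T (H : Hm K Z f δ₀) (hr : Rg K Z x) (ha : Av K x a) {b : Fin 6} (hb : b ≠ a) :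
    ∑ c, lamT K Z f δ₀ a x b c = 0 := by
  have h1 := H.euler hr ha hb.symm
  rw [← h1, ← Finset.sum_subset (Finset.subset_univ (Finset.univ \ {a, b}))]
  · refine Finset.sum_congr rfl fun c hc => ?_
    simp only [Finset.mem_sdiff, Finset.mem_univ, Finset.mem_insert, Finset.mem_singleton,
      true_and, not_or] at hc
    rw [lamT_eq ⟨hb.symm, fun h => hc.1 h.symm, fun h => hc.2 h.symm⟩]
    congr 1
    ext t
    simp only [Finset.mem_insert, Finset.mem_singleton]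
    tauto
  · intro c _ hc
    refine lamT_ne (fun h => hc ?_) x
    simp only [Finset.mem_sdiff, Finset.mem_univ, Finset.mem_insert, Finset.mem_singleton,
      true_and, not_or]
    exact ⟨fun h' => h.2.1 h'.symm, fun h' => h.2.2 h'.symm⟩

theorem Hm.agree_T (H : Hm K Z f δ₀) (hr : Rg K Z x) {b : Fin 6}
    (hab : ∀ y, dist y x = 1 → ∃ c ∈ K y, c ≠ a ∧ c ≠ b)
    (hz : ∀ z ∈ Z, dist z x = 1 → ∃ i, i ∈ K z ∧ i ∉ f z ∧ i ∉ ({a, b} : Set (Fin 6)))
    (c : Fin 6) : lamT K Z f δ₀ a x b c = lamT K Z f δ₀ b x a c := by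
  by_cases h : a ≠ b ∧ a ≠ c ∧ b ≠ c
  · rw [lamT_eq h, lamT_eq ⟨h.1.symm, h.2.2, h.2.1⟩]
    have e : ({b, a, c} : Finset (Fin 6)) = {a, b, c} := by
      ext t
      simp only [Finset.mem_insert, Finset.mem_singleton]
      tauto
    rw [e]
    exact H.agree hr hab hz (by simp) (by simp)
  · rw [lamT_ne h, lamT_ne fun h' => h ⟨h'.1.symm, h'.2.2, h'.2.1⟩]

theorem Hm.supp_T (H : Hm K Z f δ₀) (hr : Rg K Z x) (ha : Av K x a) {b c : Fin 6}
    (h : lamT K Z f δ₀ a x b c ≠ 0) :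
    ∃ u ∈ closedBall x 1, Face K Z f u {a, b, c} ∧
      ¬ ∀ᶠ w in 𝓝[closedBall x 1 \ {u}] u, a ∉ K w := by
  by_contra hcon
  push Not at hcon
  refine h ?_
  by_cases h' : a ≠ b ∧ a ≠ c ∧ b ≠ c
  · rw [lamT_eq h']
    refine H.supp hr ha (by simp) ?_ fun u hu hf => ?_
    · rw [Finset.card_eq_three.2 ⟨a, b, c, h'.1, h'.2.1, h'.2.2, rfl⟩]
      omega
    · have e : (({a, b, c} : Finset (Fin 6)) : Set (Fin 6)) = {a, b, c} := by simp
      rw [e] at hf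
      have := hcon u hu hf
      simpa using this
  · exact lamT_ne h' x

/-- other covers which have at most three colours together with the apex covers -/
theorem Hm.lam_eqG (H : Hm K Z f δ₀) (hr : Rg K Z x) (ha : Av K x a) {K' : ℂ → Set (Fin 6)}
    (hK' : Nice K' x) (ha' : Av K' x a) (hδ : 0 < δ) (hδ' : δ ≤ δ₀ / 2)
    (hU : ∀ u ∈ closedBall x 1, (K' u ∪ apx K Z δ (hp K f {a}) u).ncard ≤ 3)
    {s : Finset (Fin 6)} (has : a ∈ s) : lamS K' a x s = lamH K Z f δ₀ a x s := by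
  rw [← H.lam_eq hr ha hδ hδ' (H.av ha δ) has]
  exact lamS_union hK' (H.nice hr hδ hδ' {a}) hU ha' (H.av ha δ) has

/-- no exceptional point on the circle: for small scales the apex cover is the palette there -/
theorem Hm.off_circle (H : Hm K Z f δ₀) (hS : ∀ z ∈ Z, dist z x ≠ 1) :
    ∃ δ > 0, ∀ z ∈ Z, ∀ y, dist y x = 1 → δ < dist y z := by
  have hd : Disjoint Z (sphere x 1) := by
    rw [Set.disjoint_left]
    exact fun z hz hzS => hS z hz (mem_sphere.1 hzS)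
  obtain ⟨η, hη, hdis⟩ := hd.exists_thickenings H.compact isClosed_sphere
  refine ⟨η / 2, by linarith, fun z hz y hy => ?_⟩
  by_contra hcon
  push Not at hcon
  have h1 : y ∈ thickening η Z := by
    rw [mem_thickening_iff]
    exact ⟨z, hz, by linarith⟩
  exact Set.disjoint_left.1 hdis h1 (self_subset_thickening hη _ (mem_sphere.2 hy))

/-- **Boundary** at a face `{a, b, c}` without exceptional points on the circle -/
theorem Hm.windK (H : Hm K Z f δ₀) (hr : Rg K Z x) {b c d e g : Fin 6}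
    (hnd : [a, b, c, d, e, g].Nodup)
    (hx : ∀ y, dist y x = 1 → ∃ t ∈ K y, t ∉ ({a, b, c} : Set (Fin 6)))
    (hS : ∀ z ∈ Z, dist z x ≠ 1)
    (hno : ∀ u ∈ closedBall x 1, ¬ Face K Z f u {d, e, g}) {v : ZMod 2}
    (hW : ∀ᶠ j : ℕ in atTop, ∀ h : ℕ → Fin 6, h (6 * 2 ^ j) = h 0 →
      (∀ k ≤ 6 * 2 ^ j, h k ∈ K (pt x j (2 ^ j) k) ∧ h k ∉ ({a, b, c} : Set (Fin 6))) →
        ∑ k ∈ Finset.range (6 * 2 ^ j), eps (h k) (h (k + 1)) {d, e} = v) :
    lamH K Z f δ₀ a x {a, d, e} + lamH K Z f δ₀ b x {b, d, e} +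
      lamH K Z f δ₀ c x {c, d, e} = v := by
  obtain ⟨δ₁, hδ₁, h1⟩ := H.off_circle hS
  refine H.windT hr hnd hx (fun z hz h => absurd h (hS z hz)) hno ?_
  filter_upwards [Ioo_mem_nhdsGT hδ₁] with δ hδ
  filter_upwards [hW] with j hj h hper hh
  refine hj h hper fun k hk => ?_
  have h2 := hh k hk
  rwa [apx_far fun z hz => hδ.2.trans (h1 z hz _ (pt_ring x j k))] at h2

/-- the boundary in terms of `lamT` -/
theorem Hm.wind_T (H : Hm K Z f δ₀) (hr : Rg K Z x) {b c d e g : Fin 6}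
    (hnd : [a, b, c, d, e, g].Nodup)
    (hx : ∀ y, dist y x = 1 → ∃ t ∈ K y, t ∉ ({a, b, c} : Set (Fin 6)))
    (hz : ∀ z ∈ Z, dist z x = 1 → ∃ i, i ∈ K z ∧ i ∉ f z ∧ i ∉ ({a, b, c} : Set (Fin 6)))
    (hno : ∀ u ∈ closedBall x 1, ¬ Face K Z f u {d, e, g}) {v : ZMod 2}
    (hW : ∀ᶠ δ in 𝓝[>] (0 : ℝ), ∀ᶠ j : ℕ in atTop, ∀ h : ℕ → Fin 6, h (6 * 2 ^ j) = h 0 →
      (∀ k ≤ 6 * 2 ^ j, h k ∈ apx K Z δ (hp K f {a, b, c}) (pt x j (2 ^ j) k) ∧
        h k ∉ ({a, b, c} : Set (Fin 6))) →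
        ∑ k ∈ Finset.range (6 * 2 ^ j), eps (h k) (h (k + 1)) {d, e} = v) :
    lamT K Z f δ₀ a x d e + lamT K Z f δ₀ b x d e + lamT K Z f δ₀ c x d e = v := by
  have h1 := H.windT hr hnd hx hz hno hW
  simp only [List.nodup_cons, List.mem_cons, List.not_mem_nil, or_false, not_or] at hnd
  rw [lamT_eq ⟨hnd.1.2.2.1, hnd.1.2.2.2.1, hnd.2.2.2.1.1⟩,
    lamT_eq ⟨hnd.2.1.2.1, hnd.2.1.2.2.1, hnd.2.2.2.1.1⟩,
    lamT_eq ⟨hnd.2.2.1.1, hnd.2.2.1.2.1, hnd.2.2.2.1.1⟩]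
  exact h1

end free

/-! ### the frame -/

/-- the points of `W` with at least four colours have four colours and are harmless: all points
`y` of the unit circle with `T y ⊆ T z` have the two colours of `f z` -/
structure Hml (T : ℂ → Set (Fin 6)) (f : ℂ → Set (Fin 6)) (W : Set ℂ) : Prop where
  four : ∀ z ∈ W, 4 ≤ (T z).ncard → (T z).ncard = 4
  two : ∀ z ∈ W, 4 ≤ (T z).ncard → (f z).ncard = 2
  fsub : ∀ z ∈ W, 4 ≤ (T z).ncard → f z ⊆ T z
  h1 : ∀ z ∈ W, 4 ≤ (T z).ncard → ∀ y, dist y z = 1 → T y ⊆ T z → f z ⊆ T y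
  h2 : ∀ z ∈ W, 4 ≤ (T z).ncard → ∃ y, dist y z = 1 ∧ T y = f z

/-- `Z` : the points with at least four colours, up to the boundary of a disc -/
structure Zs (T : ℂ → Set (Fin 6)) (Z : Set ℂ) (c : ℂ) (R : ℝ) : Prop where
  compact : IsCompact Z
  four : ∀ z ∈ Z, 4 ≤ (T z).ncard
  mem : ∀ z ∈ closedBall c R, 4 ≤ (T z).ncard → z ∈ Z
  sub : Z ⊆ ball c (R + 1)
  opn : ∀ z ∈ Z, ∀ᶠ w in 𝓝 z, 4 ≤ (T w).ncard → w ∈ Z

variable {U : Fin 6 → Set ℂ} {T : ℂ → Set (Fin 6)} {Z : Set ℂ} {f : ℂ → Set (Fin 6)}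
  {c : ℂ} {R δ₀ : ℝ} {W : Set ℂ}

theorem exists_Zs (h : Irr U T) (c : ℂ) (R : ℝ) : ∃ Z, Zs T Z c R := by
  let A : Set ℂ := closedBall c (R + 1) ∩ {x | 4 ≤ (T x).ncard}
  have hA : IsCompact A := (isCompact_closedBall c (R + 1)).inter_right (h.isClosed_le_card 4)
  have hcs : CompactSpace ↥A := isCompact_iff_compactSpace.1 hA
  have htd : TotallyDisconnectedSpace ↥A :=
    totallyDisconnectedSpace_subtype_iff.2 fun C hC hC' => h.td C (hC.trans inter_subset_right) hC'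
  have hO : IsOpen (Subtype.val ⁻¹' ball c (R + 1) : Set ↥A) :=
    isOpen_ball.preimage continuous_subtype_val
  have hC : IsCompact (Subtype.val ⁻¹' closedBall c R : Set ↥A) :=
    (isClosed_closedBall.preimage continuous_subtype_val).isCompact
  have hcl : ∀ z : ↥A, (z : ℂ) ∈ closedBall c R → ∃ V : Set ↥A, IsClopen V ∧ z ∈ V ∧
      V ⊆ Subtype.val ⁻¹' ball c (R + 1) := fun z hz =>
    compact_exists_isClopen_in_isOpen hO (show (z : ℂ) ∈ ball c (R + 1) from by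
      have := mem_closedBall.1 hz
      exact mem_ball.2 (by linarith))
  choose! V hV hzV hVs using hcl
  obtain ⟨t, htc⟩ := hC.elim_nhds_subcover' (fun z _ => V z) (fun z hz =>
    (hV z hz).isOpen.mem_nhds (hzV z hz))
  let V' : Set ↥A := ⋃ z ∈ t, V z
  have hV' : IsClopen V' := by
    refine t.finite_toSet.isClopen_biUnion fun z hz => ?_
    exact hV _ z.2
  obtain ⟨O, hOo, hOV⟩ := isOpen_induced_iff.1 hV'.isOpen
  refine ⟨Subtype.val '' V', ?_, ?_, ?_, ?_, ?_⟩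
  · exact hV'.isClosed.isCompact.image continuous_subtype_val
  · rintro _ ⟨z, -, rfl⟩
    exact z.2.2
  · intro z hz h4
    have hzA : z ∈ A := ⟨closedBall_subset_closedBall (by linarith) hz, h4⟩
    exact ⟨⟨z, hzA⟩, htc hz, rfl⟩
  · rintro _ ⟨z, hz, rfl⟩
    obtain ⟨w, hw, hzw⟩ := mem_iUnion₂.1 hz
    exact hVs _ w.2 hzw
  · rintro _ ⟨z, hz, rfl⟩
    have hzb : (z : ℂ) ∈ ball c (R + 1) := by
      obtain ⟨w, hw, hzw⟩ := mem_iUnion₂.1 hz
      exact hVs _ w.2 hzw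
    have hzO : (z : ℂ) ∈ O := by
      have : z ∈ Subtype.val ⁻¹' O := by rw [hOV]; exact hz
      exact this
    filter_upwards [hOo.mem_nhds hzO, isOpen_ball.mem_nhds hzb] with w hwO hwb hw4
    have hwA : w ∈ A := ⟨ball_subset_closedBall hwb, hw4⟩
    refine ⟨⟨w, hwA⟩, ?_, rfl⟩
    rw [← hOV]
    exact hwO

/-- harmless points give the structure `Hm` -/
theorem exists_Hm_of (h : Irr U T) (hZ : Zs T Z c R) (hl : Hml T f (ball c (R + 1))) :
    ∃ δ₀, Hm T Z f δ₀ := by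
  have hm := hl.four
  refine exists_Hm hZ.compact h.nhd h.ne (fun z hz => hl.four z (hZ.sub hz) (hZ.four z hz))
    (fun z hz => hl.two z (hZ.sub hz) (hZ.four z hz))
    (fun z hz => hl.fsub z (hZ.sub hz) (hZ.four z hz)) (fun z hz => ?_) (fun z hz => ?_)
  · obtain ⟨y, hy, hyf⟩ := hl.h2 z (hZ.sub hz) (hZ.four z hz)
    filter_upwards [h.no_layer hy, hZ.opn z hz] with w h1 h2 hwZ hf
    exact hwZ (h2 (h1 (by rw [hyf]; exact hf)))
  · obtain ⟨y, hy, hyf⟩ := hl.h2 z (hZ.sub hz) (hZ.four z hz)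
    have h1 : Tendsto (fun x => y + (x - z)) (𝓝 z) (𝓝 y) := by
      have : Continuous fun x : ℂ => y + (x - z) := by fun_prop
      have h2 := this.tendsto z
      simpa using h2
    filter_upwards [h1.eventually (h.nhd y), h.nhd z] with w h2 h3 hwZ
    have e : T w = T z := Set.eq_of_subset_of_ncard_le h3 (by
      rw [hl.four z (hZ.sub hz) (hZ.four z hz), hl.four w (hZ.sub hwZ) (hZ.four w hwZ)])
      (Set.toFinite _)
    have hd : dist (y + (w - z)) w = 1 := by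
      rw [dist_eq_norm] at hy ⊢
      rw [← hy]; congr 1; ring
    have h4 : T (y + (w - z)) ⊆ f z := by rw [← hyf]; exact h2
    have h5 : f w ⊆ T (y + (w - z)) := hl.h1 w (hZ.sub hwZ) (hZ.four w hwZ) _ hd (by
      rw [e]; exact h4.trans (hl.fsub z (hZ.sub hz) (hZ.four z hz)))
    refine Set.eq_of_subset_of_ncard_le (h5.trans h4) ?_ (Set.toFinite _)
    rw [hl.two z (hZ.sub hz) (hZ.four z hz), hl.two w (hZ.sub hwZ) (hZ.four w hwZ)]

/-- the discs about the points of `closedBall c (R - 1)` -/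
theorem Zs.rg (hZ : Zs T Z c R) {x : ℂ} (hx : dist x c ≤ R - 1) : Rg T Z x := by
  intro u hu huZ
  by_contra hcon
  refine huZ (hZ.mem u ?_ (by omega))
  have := mem_closedBall.1 hu
  have := dist_triangle u x c
  exact mem_closedBall.2 (by linarith)

/-- a colour can be avoided on the circle about a point which has it -/
theorem av_T (h : Irr U T) {x : ℂ} {a : Fin 6} (ha : a ∈ T x) : Av T x a := by
  intro y hy
  by_contra hcon
  push Not at hcon
  exact h.mx.notMem' (h.mem_of_single fun j hj => by simpa using hcon j hj) hy (h.sub x ha)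

/-- three colours which are a face at `x` -/
def FaceT (T : ℂ → Set (Fin 6)) (x : ℂ) (s : Set (Fin 6)) : Prop :=
  s.ncard = 3 ∧ s ⊆ T x ∧ ∀ y, dist y x = 1 → ¬ T y ⊆ s

/-- the two notions of faces agree -/
theorem face_iff (h : Irr U T) (hZ : Zs T Z c R) (hl : Hml T f (ball c (R + 1))) {u : ℂ}
    (hu : dist u c ≤ R) {s : Set (Fin 6)} (hs : s.ncard = 3) :
    Face T Z f u s ↔ FaceT T u s := by
  constructor
  · rintro ⟨h1, h2⟩
    refine ⟨hs, h1, fun y hy hsub => ?_⟩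
    by_cases huZ : u ∈ Z
    · exact h2 huZ ((hl.h1 u (hZ.sub huZ) (hZ.four u huZ) y hy (hsub.trans h1)).trans hsub)
    · have h3 : (T u).ncard ≤ 3 := by
        by_contra hcon
        exact huZ (hZ.mem u (mem_closedBall.2 hu) (by omega))
      exact h.not_sub hy h3 (hsub.trans h1)
  · rintro ⟨-, h1, h2⟩
    refine ⟨h1, fun huZ hf => ?_⟩
    obtain ⟨y, hy, hyf⟩ := hl.h2 u (hZ.sub huZ) (hZ.four u huZ)
    exact h2 y hy (by rw [hyf]; exact hf)

/-- the exceptional sets -/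
def Ex (T : ℂ → Set (Fin 6)) (Z : Set ℂ) (f : ℂ → Set (Fin 6)) (i j : Fin 6) : Set ℂ :=
  {z | z ∈ Z ∧ f z = {i, j}} ∪
    {v | v ∉ Z ∧ i ∈ T v ∧ j ∈ T v ∧ ∃ z ∈ Z, dist z v = 1 ∧ T z \ f z = {i, j}}

theorem Ex_symm (i j : Fin 6) : Ex T Z f i j = Ex T Z f j i := by
  unfold Ex
  rw [Set.pair_comm i j]
  ext v
  simp only [mem_union, mem_ofPred_eq]
  tauto

/-- an apex off `A` for the exceptional points of the circle about `x ∉ Z` -/
theorem apex_off (hZ : Zs T Z c R) (hl : Hml T f (ball c (R + 1))) {x : ℂ}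
    (hx : x ∉ Z) {A : Set (Fin 6)} (hA : A ⊆ T x)
    (hE : ∀ i ∈ A, ∀ j ∈ A, i ≠ j → x ∉ Ex T Z f i j) {z : ℂ} (hz : z ∈ Z) (hzx : dist z x = 1) :
    ∃ i, i ∈ T z ∧ i ∉ f z ∧ i ∉ A := by
  by_contra hcon
  push Not at hcon
  have h4 := hl.four z (hZ.sub hz) (hZ.four z hz)
  have h2 := hl.two z (hZ.sub hz) (hZ.four z hz)
  have hc : (T z \ f z).ncard = 2 := by
    rw [Set.ncard_sdiff (hl.fsub z (hZ.sub hz) (hZ.four z hz)) (Set.toFinite _), h4, h2]
  obtain ⟨i, j, hij, he⟩ := Set.ncard_eq_two.1 hc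
  have hi : i ∈ T z \ f z := by rw [he]; simp
  have hj : j ∈ T z \ f z := by rw [he]; simp
  have hiA := hcon i hi.1 hi.2
  have hjA := hcon j hj.1 hj.2
  exact hE i hiA j hjA hij (Or.inr ⟨hx, hA hiA, hA hjA, z, hz, hzx, he⟩)

/-- **Agreement** off the exceptional sets -/
theorem agree_T (h : Irr U T) (hZ : Zs T Z c R) (hl : Hml T f (ball c (R + 1)))
    (hcl : ∀ z ∈ Z, ∀ z' ∈ Z, dist z z' ≠ 1) (H : Hm T Z f δ₀) {x : ℂ} (hx : dist x c ≤ R - 1)
    {a b : Fin 6} (ha : a ∈ T x) (hb : b ∈ T x) (hE : x ∉ Ex T Z f a b) (d : Fin 6) :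
    lamT T Z f δ₀ a x b d = lamT T Z f δ₀ b x a d := by
  rcases eq_or_ne a b with rfl | hab
  · rfl
  refine H.agree_T (hZ.rg hx) (fun y hy => ?_) (fun z hz hzx => ?_) d
  · by_contra hcon
    push Not at hcon
    have hsub : T y ⊆ {a, b} := fun i hi => by
      by_cases hia : i = a
      · exact Or.inl hia
      · exact Or.inr (hcon i hi hia)
    have hsub' : T y ⊆ T x := hsub.trans (by rintro i (rfl | rfl); exacts [ha, hb])
    by_cases hxZ : x ∈ Z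
    · have h1 := hl.h1 x (hZ.sub hxZ) (hZ.four x hxZ) y hy hsub'
      refine hE (Or.inl ⟨hxZ, Set.eq_of_subset_of_ncard_le (h1.trans hsub) ?_ (Set.toFinite _)⟩)
      rw [hl.two x (hZ.sub hxZ) (hZ.four x hxZ), Set.ncard_pair hab]
    · refine h.not_sub hy ?_ hsub'
      by_contra hcon
      exact hxZ (hZ.mem x (mem_closedBall.2 (by linarith)) (by omega))
  · have hxZ : x ∉ Z := fun hxZ => hcl z hz x hxZ hzx
    refine apex_off hZ hl hxZ (A := {a, b}) (by rintro i (rfl | rfl); exacts [ha, hb]) ?_ hz hzx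
    rintro i (rfl | rfl) j (rfl | rfl) hij
    · exact absurd rfl hij
    · exact hE
    · rw [Ex_symm]; exact hE
    · exact absurd rfl hij

end Vale.Agent.P032.Carr
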