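import Vale.Agent.P032.Carr.LamX

/-!
# P032: the interface `LamX` with unit pairs of harmless points

The hypothesis that no two exceptional points are at distance one is weakened: for two exceptional
points `z`, `z'` at distance one, the apexes of `z` are not both colours of `z'`, unless they are
the forbidden pair of `z'`.
-/

open Set Filter Topology Metric

noncomputable section

namespace Vale.Agent.P032.Carr

open Vale.Agent.P032.S5 Vale.Agent.P032.Six

variable {U : Fin 6 → Set ℂ} {T : ℂ → Set (Fin 6)} {Z : Set ℂ} {f : ℂ → Set (Fin 6)}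
  {c : ℂ} {R δ₀ : ℝ} {x : ℂ}

/-- admissible unit pairs -/
def Up (T : ℂ → Set (Fin 6)) (Z : Set ℂ) (f : ℂ → Set (Fin 6)) : Prop :=
  ∀ z ∈ Z, ∀ z' ∈ Z, dist z z' = 1 → T z \ f z ⊆ T z' → T z \ f z = f z'

/-- an apex off `A` for the exceptional points of the circle about `x` -/
theorem apex_offU (hZ : Zs T Z c R) (hl : Hml T f (ball c (R + 1))) (hup : Up T Z f) {x : ℂ}
    {A : Set (Fin 6)} (hA : A ⊆ T x)
    (hE : ∀ i ∈ A, ∀ j ∈ A, i ≠ j → x ∉ Ex T Z f i j) {z : ℂ} (hz : z ∈ Z) (hzx : dist z x = 1) :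
    ∃ i, i ∈ T z ∧ i ∉ f z ∧ i ∉ A := by
  by_cases hx : x ∈ Z
  · by_contra hcon
    push Not at hcon
    have hc : (T z \ f z).ncard = 2 := by
      rw [Set.ncard_sdiff (hl.fsub z (hZ.sub hz) (hZ.four z hz)) (Set.toFinite _),
        hl.four z (hZ.sub hz) (hZ.four z hz), hl.two z (hZ.sub hz) (hZ.four z hz)]
    obtain ⟨i, j, hij, he⟩ := Set.ncard_eq_two.1 hc
    have hi : i ∈ T z \ f z := by rw [he]; simp
    have hj : j ∈ T z \ f z := by rw [he]; simp
    have hiA := hcon i hi.1 hi.2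
    have hjA := hcon j hj.1 hj.2
    refine hE i hiA j hjA hij (Or.inl ⟨hx, ?_⟩)
    rw [← hup z hz x hx hzx fun t ht => hA (hcon t ht.1 ht.2), he]
  · exact apex_off hZ hl hx hA hE hz hzx

/-- **Agreement** off the exceptional sets -/
theorem agree_U (h : Irr U T) (hZ : Zs T Z c R) (hl : Hml T f (ball c (R + 1)))
    (hup : Up T Z f) (H : Hm T Z f δ₀) {x : ℂ} (hx : dist x c ≤ R - 1)
    {a b : Fin 6} (ha : a ∈ T x) (hb : b ∈ T x) (hE : x ∉ Ex T Z f a b) (d : Fin 6) :
    lamT T Z f δ₀ a x b d = lamT T Z f δ₀ b x a d := by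
  rcases eq_or_ne a b with rfl | hab
  · rfl
  refine H.agree_T (hZ.rg hx) (fun y hy => ?_) (fun z hz hzx => ?_) d
  · by_contra hcon
    push Not at hcon
    have hsub : T y ⊆ {a, b} := fun i hi => by
      by_cases hia : i = a
      · exact Or.inl hia
      · exact Or.inr (hcon i hi hia)
    have hsub' : T y ⊆ T x := hsub.trans (by rintro i (rfl | rfl); exacts [ha, hb])
    by_cases hxZ : x ∈ Z
    · have h1 := hl.h1 x (hZ.sub hxZ) (hZ.four x hxZ) y hy hsub'
      refine hE (Or.inl ⟨hxZ, Set.eq_of_subset_of_ncard_le (h1.trans hsub) ?_ (Set.toFinite _)⟩)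
      rw [hl.two x (hZ.sub hxZ) (hZ.four x hxZ), Set.ncard_pair hab]
    · refine h.not_sub hy ?_ hsub'
      by_contra hcon
      exact hxZ (hZ.mem x (mem_closedBall.2 (by linarith)) (by omega))
  · refine apex_offU hZ hl hup (A := {a, b}) (by rintro i (rfl | rfl); exacts [ha, hb]) ?_ hz hzx
    rintro i (rfl | rfl) j (rfl | rfl) hij
    · exact absurd rfl hij
    · exact hE
    · rw [Ex_symm]; exact hE
    · exact absurd rfl hij

/-- **The interface.** -/
theorem lamX_U (h : Irr U T) (hZ : Zs T Z c R) (hl : Hml T f (ball c (R + 1)))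
    (hup : Up T Z f) (H : Hm T Z f δ₀) {B : Set ℂ}
    (hB : ∀ x ∈ B, dist x c ≤ R - 1)
    (hcomp : ∀ x ∈ B, ∀ s : Set (Fin 6), S5.Face T x s → ∀ u, dist u x ≤ 1 → ¬ S5.Face T u sᶜ)
    (hlens : ∀ x ∈ B, ∀ S : Set (Fin 6), ∀ t b c, t ≠ b → t ≠ c → b ≠ c →
      Base T (Ex T Z f) x S → ({t, b, c} : Set (Fin 6)) ≠ S → ({t, b, c} : Set (Fin 6))ᶜ ≠ S →
      ({t, b, c} : Set (Fin 6)) ∩ S = {t} → ∀ u u', S5.Face T u {t, b, c} →
      S5.Face T u' ({t, b, c} : Set (Fin 6))ᶜ → dist u x = 1 → dist u' x = 1 → dist u u' = 2 →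
      (¬ ∀ᶠ w in 𝓝[closedBall x 1 \ {u}] u, t ∉ T w) → lamT T Z f δ₀ t x b c = 0)
    (hring : ∀ x ∈ B, ∀ a b c d e g : Fin 6, [a, b, c, d, e, g].Nodup →
      Base T (Ex T Z f) x {a, b, c} →
      ∀ᶠ δ in 𝓝[>] (0 : ℝ), ∀ᶠ j : ℕ in atTop, ∀ h : ℕ → Fin 6, h (6 * 2 ^ j) = h 0 →
      (∀ k ≤ 6 * 2 ^ j, h k ∈ apx T Z δ (hp T f {a, b, c}) (pt x j (2 ^ j) k) ∧
        h k ∉ ({a, b, c} : Set (Fin 6))) →
        ∑ k ∈ Finset.range (6 * 2 ^ j), eps (h k) (h (k + 1)) {d, e} = 1) :
    LamX T (Ex T Z f) B (lamT T Z f δ₀) := by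
  refine ⟨fun a x b c => lamT_symm a x b c, fun a x b => lamT_diag a x b,
    fun a x b => lamT_self a x b, fun a x hx ha => ?_, fun a x hx ha b hb => ?_,
    fun x hx a ha b hb hab hE d => ?_, fun x hx a ha b d hab had hbd hne => ?_, hlens,
    fun x hx a b g hab hag hbg hbase d e hde hd he => ?_⟩
  · filter_upwards [mem_nhdsWithin_of_mem_nhds (H.loc_T (hZ.rg (hB x hx)) (av_T h ha)),
      self_mem_nhdsWithin] with x' h1 h2
    exact h1 (av_T h h2)
  · exact H.euler_T (hZ.rg (hB x hx)) (av_T h ha) hb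
  · exact agree_U h hZ hl hup H (hB x hx) ha hb hE d
  · obtain ⟨u, hu, hF, hev⟩ := H.supp_T (hZ.rg (hB x hx)) (av_T h ha) hne
    refine ⟨u, hu, (face_iff h hZ hl ?_ ?_).1 hF, hev⟩
    · have h1 := mem_closedBall.1 hu
      have h2 := hB x hx
      have := dist_triangle u x c
      linarith
    · exact Set.ncard_eq_three.2 ⟨a, b, d, hab, had, hbd, rfl⟩
  · have hd' := hd
    have he' := he
    simp only [Set.mem_insert_iff, Set.mem_singleton_iff, not_or] at hd' he'
    obtain ⟨k, hk⟩ : ∃ k, [a, b, g, d, e, k].Nodup := by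
      apply exists_fourth
      simp only [List.nodup_cons, List.mem_cons, List.not_mem_nil, or_false, not_or,
        List.nodup_nil, and_true, not_false_eq_true]
      tauto
    have hxc := hB x hx
    have hcc : ({a, b, g} : Set (Fin 6))ᶜ = {d, e, k} := by
      have h1 : ({a, b, g, d, e, k} : Finset (Fin 6)) = Finset.univ := by
        apply Finset.eq_univ_of_card
        have := List.toFinset_card_of_nodup hk
        simpa using this
      ext i
      have hi : i ∈ ({a, b, g, d, e, k} : Finset (Fin 6)) := by rw [h1]; simp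
      simp only [List.nodup_cons, List.mem_cons, List.not_mem_nil, or_false, not_or] at hk
      simp only [Finset.mem_insert, Finset.mem_singleton] at hi
      simp only [Set.mem_compl_iff, Set.mem_insert_iff, Set.mem_singleton_iff, not_or]
      rcases hi with rfl | rfl | rfl | rfl | rfl | rfl <;> tauto
    refine H.wind_T (hZ.rg hxc) hk (fun y hy => ?_) (fun z hz hzx => ?_) (fun u hu hF => ?_)
      (hring x hx a b g d e k hk hbase)
    · by_contra hcon
      push Not at hcon
      exact hbase.1.2.2 y hy fun i hi => hcon i hi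
    · exact apex_offU hZ hl hup hbase.1.2.1 (fun i hi j hj hij => hbase.2 i hi j hj hij) hz hzx
    · have hu' := mem_closedBall.1 hu
      refine hcomp x hx _ hbase.1 u hu' ?_
      rw [hcc]
      refine (face_iff h hZ hl ?_ ?_).1 hF
      · have := dist_triangle u x c
        linarith
      · refine Set.ncard_eq_three.2 ⟨d, e, k, ?_, ?_, ?_, rfl⟩ <;>
        · simp only [List.nodup_cons, List.mem_cons, List.not_mem_nil, or_false, not_or] at hk
          tauto

end Vale.Agent.P032.Carr
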