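import Vale.Agent.P032.Carr.LamT
import Vale.Agent.P032.S5.H830.StateX

/-!
# P032: the interface `LamX` for the state in the presence of harmless four-coloured points
-/

open Set Filter Topology Metric

noncomputable section

namespace Vale.Agent.P032.Carr

open Vale.Agent.P032.S5 Vale.Agent.P032.Six

variable {U : Fin 6 → Set ℂ} {T : ℂ → Set (Fin 6)} {Z : Set ℂ} {f : ℂ → Set (Fin 6)}
  {c : ℂ} {R δ₀ : ℝ} {x : ℂ}

/-- no exceptional point on the circle: rings of the apex covers are rings of `T` -/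
theorem Hm.ring_off {K : ℂ → Set (Fin 6)} (H : Hm K Z f δ₀) (hS : ∀ z ∈ Z, dist z x ≠ 1)
    {A : Set (Fin 6)} {p : Finset (Fin 6)} {v : ZMod 2}
    (hW : ∀ᶠ j : ℕ in atTop, ∀ h : ℕ → Fin 6, h (6 * 2 ^ j) = h 0 →
      (∀ k ≤ 6 * 2 ^ j, h k ∈ K (pt x j (2 ^ j) k) ∧ h k ∉ A) →
        ∑ k ∈ Finset.range (6 * 2 ^ j), eps (h k) (h (k + 1)) p = v) :
    ∀ᶠ δ in 𝓝[>] (0 : ℝ), ∀ᶠ j : ℕ in atTop, ∀ h : ℕ → Fin 6, h (6 * 2 ^ j) = h 0 →
      (∀ k ≤ 6 * 2 ^ j, h k ∈ apx K Z δ (hp K f A) (pt x j (2 ^ j) k) ∧ h k ∉ A) →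
        ∑ k ∈ Finset.range (6 * 2 ^ j), eps (h k) (h (k + 1)) p = v := by
  obtain ⟨δ₁, hδ₁, h1⟩ := H.off_circle hS
  filter_upwards [Ioo_mem_nhdsGT hδ₁] with δ hδ
  filter_upwards [hW] with j hj h hper hh
  refine hj h hper fun k hk => ?_
  have h2 := hh k hk
  rwa [apx_far fun z hz => hδ.2.trans (h1 z hz _ (pt_ring x j k))] at h2

/-- **The interface.** -/
theorem lamX_of (h : Irr U T) (hZ : Zs T Z c R) (hl : Hml T f (ball c (R + 1)))
    (hcl : ∀ z ∈ Z, ∀ z' ∈ Z, dist z z' ≠ 1) (H : Hm T Z f δ₀) {B : Set ℂ}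
    (hB : ∀ x ∈ B, dist x c ≤ R - 1)
    (hcomp : ∀ x ∈ B, ∀ s : Set (Fin 6), S5.Face T x s → ∀ u, dist u x ≤ 1 → ¬ S5.Face T u sᶜ)
    (hlens : ∀ x ∈ B, ∀ S : Set (Fin 6), ∀ t b c, t ≠ b → t ≠ c → b ≠ c →
      Base T (Ex T Z f) x S → ({t, b, c} : Set (Fin 6)) ≠ S → ({t, b, c} : Set (Fin 6))ᶜ ≠ S →
      ({t, b, c} : Set (Fin 6)) ∩ S = {t} → ∀ u u', S5.Face T u {t, b, c} →
      S5.Face T u' ({t, b, c} : Set (Fin 6))ᶜ → dist u x = 1 → dist u' x = 1 → dist u u' = 2 →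
      (¬ ∀ᶠ w in 𝓝[closedBall x 1 \ {u}] u, t ∉ T w) → lamT T Z f δ₀ t x b c = 0)
    (hring : ∀ x ∈ B, ∀ a b c d e g : Fin 6, [a, b, c, d, e, g].Nodup →
      Base T (Ex T Z f) x {a, b, c} →
      ∀ᶠ δ in 𝓝[>] (0 : ℝ), ∀ᶠ j : ℕ in atTop, ∀ h : ℕ → Fin 6, h (6 * 2 ^ j) = h 0 →
      (∀ k ≤ 6 * 2 ^ j, h k ∈ apx T Z δ (hp T f {a, b, c}) (pt x j (2 ^ j) k) ∧
        h k ∉ ({a, b, c} : Set (Fin 6))) →
        ∑ k ∈ Finset.range (6 * 2 ^ j), eps (h k) (h (k + 1)) {d, e} = 1) :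
    LamX T (Ex T Z f) B (lamT T Z f δ₀) := by
  refine ⟨fun a x b c => lamT_symm a x b c, fun a x b => lamT_diag a x b,
    fun a x b => lamT_self a x b, fun a x hx ha => ?_, fun a x hx ha b hb => ?_,
    fun x hx a ha b hb hab hE d => ?_, fun x hx a ha b d hab had hbd hne => ?_, hlens,
    fun x hx a b g hab hag hbg hbase d e hde hd he => ?_⟩
  · filter_upwards [mem_nhdsWithin_of_mem_nhds (H.loc_T (hZ.rg (hB x hx)) (av_T h ha)),
      self_mem_nhdsWithin] with x' h1 h2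
    exact h1 (av_T h h2)
  · exact H.euler_T (hZ.rg (hB x hx)) (av_T h ha) hb
  · exact agree_T h hZ hl hcl H (hB x hx) ha hb hE d
  · obtain ⟨u, hu, hF, hev⟩ := H.supp_T (hZ.rg (hB x hx)) (av_T h ha) hne
    refine ⟨u, hu, (face_iff h hZ hl ?_ ?_).1 hF, hev⟩
    · have h1 := mem_closedBall.1 hu
      have h2 := hB x hx
      have := dist_triangle u x c
      linarith
    · exact Set.ncard_eq_three.2 ⟨a, b, d, hab, had, hbd, rfl⟩
  · have hd' := hd
    have he' := he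
    simp only [Set.mem_insert_iff, Set.mem_singleton_iff, not_or] at hd' he'
    obtain ⟨k, hk⟩ : ∃ k, [a, b, g, d, e, k].Nodup := by
      apply exists_fourth
      simp only [List.nodup_cons, List.mem_cons, List.not_mem_nil, or_false, not_or,
        List.nodup_nil, and_true, not_false_eq_true]
      tauto
    have hxc := hB x hx
    have hcc : ({a, b, g} : Set (Fin 6))ᶜ = {d, e, k} := by
      have h1 : ({a, b, g, d, e, k} : Finset (Fin 6)) = Finset.univ := by
        apply Finset.eq_univ_of_card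
        have := List.toFinset_card_of_nodup hk
        simpa using this
      ext i
      have hi : i ∈ ({a, b, g, d, e, k} : Finset (Fin 6)) := by rw [h1]; simp
      simp only [List.nodup_cons, List.mem_cons, List.not_mem_nil, or_false, not_or] at hk
      simp only [Finset.mem_insert, Finset.mem_singleton] at hi
      simp only [Set.mem_compl_iff, Set.mem_insert_iff, Set.mem_singleton_iff, not_or]
      rcases hi with rfl | rfl | rfl | rfl | rfl | rfl <;> tauto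
    refine H.wind_T (hZ.rg hxc) hk (fun y hy => ?_) (fun z hz hzx => ?_) (fun u hu hF => ?_)
      (hring x hx a b g d e k hk hbase)
    · by_contra hcon
      push Not at hcon
      exact hbase.1.2.2 y hy fun i hi => hcon i hi
    · refine apex_off hZ hl (fun hxZ => hcl z hz x hxZ hzx) hbase.1.2.1 (fun i hi j hj hij => ?_)
        hz hzx
      exact hbase.2 i hi j hj hij
    · have hu' := mem_closedBall.1 hu
      refine hcomp x hx _ hbase.1 u hu' ?_
      rw [hcc]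
      refine (face_iff h hZ hl ?_ ?_).1 hF
      · have := dist_triangle u x c
        linarith
      · refine Set.ncard_eq_three.2 ⟨d, e, k, ?_, ?_, ?_, rfl⟩ <;>
        · simp only [List.nodup_cons, List.mem_cons, List.not_mem_nil, or_false, not_or] at hk
          tauto

end Vale.Agent.P032.Carr
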