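import Vale.Agent.P032.Carr.LamX
import Vale.Agent.P032.S5.H180.Face
import Vale.Agent.P032.S5.H585.Pinch

/-!
# P032: the ring hypothesis at bases without exceptional points on the circle, and the bridge to
`Harm`
-/

open Set Filter Topology Metric

noncomputable section

namespace Vale.Agent.P032.Carr

open Vale.Agent.P032.S5 Vale.Agent.P032.Six Vale.Agent.P032.H180 Vale.Agent.P032.S5.H180

variable {U : Fin 6 → Set ℂ} {T : ℂ → Set (Fin 6)} {Z : Set ℂ} {f : ℂ → Set (Fin 6)}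
  {c : ℂ} {R δ₀ : ℝ} {x : ℂ}

theorem mem_compl_three {a b c d e g : Fin 6} (hnd : [a, b, c, d, e, g].Nodup) (i : Fin 6) :
    i ∉ ({a, b, c} : Set (Fin 6)) ↔ i = d ∨ i = e ∨ i = g := by
  have h1 : ({a, b, c, d, e, g} : Finset (Fin 6)) = Finset.univ := by
    apply Finset.eq_univ_of_card
    have := List.toFinset_card_of_nodup hnd
    simpa using this
  have hi : i ∈ ({a, b, c, d, e, g} : Finset (Fin 6)) := by rw [h1]; simp
  simp only [List.nodup_cons, List.mem_cons, List.not_mem_nil, or_false, not_or] at hnd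
  simp only [Finset.mem_insert, Finset.mem_singleton] at hi
  simp only [Set.mem_insert_iff, Set.mem_singleton_iff, not_or]
  rcases hi with rfl | rfl | rfl | rfl | rfl | rfl <;> tauto

/-- 180's faces -/
theorem toFace {s : Set (Fin 6)} (hF : S5.Face T x s) : H180.Face T x s :=
  ⟨hF.2.1, hF.1, fun y hy => Set.not_subset.1 (hF.2.2 y hy)⟩

theorem pt_cis (x : ℂ) (j k : ℕ) :
    S5.pt x j (2 ^ j) k = x + cis (2 * Real.pi * k / ((6 * 2 ^ j : ℕ) : ℝ)) := by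
  unfold S5.pt cis
  have h1 : ((((2 ^ j : ℕ) : ℝ) / 2 ^ j : ℝ) : ℂ) = 1 := by
    push_cast
    exact div_self (pow_ne_zero _ two_ne_zero)
  have h2 : (Real.pi / 3 * (k : ℝ) / 2 ^ j : ℝ) = 2 * Real.pi * k / ((6 * 2 ^ j : ℕ) : ℝ) := by
    push_cast
    field_simp
    ring
  rw [h1, one_mul, h2]

/-- the ring at a face whose circle has at most three colours at each point -/
theorem ring_clean (h : Irr U T) (hle : ∀ y, dist y x = 1 → (T y).ncard ≤ 3)
    {a b c d e g : Fin 6} (hnd : [a, b, c, d, e, g].Nodup) (hF : S5.Face T x {a, b, c})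
    (hnf : ¬ Frz x T ![d, e, g]) :
    ∀ᶠ j : ℕ in atTop, ∀ l : ℕ → Fin 6, l (6 * 2 ^ j) = l 0 →
      (∀ k ≤ 6 * 2 ^ j, l k ∈ T (S5.pt x j (2 ^ j) k) ∧ l k ∉ ({a, b, c} : Set (Fin 6))) →
        ∑ k ∈ Finset.range (6 * 2 ^ j), eps (l k) (l (k + 1)) {d, e} = 1 := by
  have hnd' := hnd
  simp only [List.nodup_cons, List.mem_cons, List.not_mem_nil, or_false, not_or] at hnd'
  obtain ⟨N, hN⟩ := (toFace hF).odd h hle (mem_compl_three hnd) hnd'.2.2.2.1.1 hnd'.2.2.2.2.1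
    hnd'.2.2.2.1.2 hnf
  filter_upwards [eventually_ge_atTop N] with j hj l hper hl
  have hNj : N ≤ 6 * 2 ^ j := by
    have := (Nat.lt_two_pow_self (n := j)).le
    omega
  refine hN _ hNj l (fun k hk => ?_) hper
  rw [← pt_cis]
  exact hl k hk

/-- **The ring hypothesis** from: no frozen circles about bases without exceptional points on the
circle; the ring at the bases with exceptional points on the circle -/
theorem ring_all (h : Irr U T) (hZ : Zs T Z c R) (H : Hm T Z f δ₀) {B : Set ℂ}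
    (hB : ∀ x ∈ B, dist x c ≤ R - 1)
    (hnf : ∀ x ∈ B, ∀ a b c d e g : Fin 6, [a, b, c, d, e, g].Nodup → S5.Face T x {a, b, c} →
      (∀ z ∈ Z, dist z x ≠ 1) → ¬ Frz x T ![d, e, g])
    (h57 : ∀ x ∈ B, (∃ z ∈ Z, dist z x = 1) → ∀ a b c d e g : Fin 6, [a, b, c, d, e, g].Nodup →
      Base T (Ex T Z f) x {a, b, c} →
      ∀ᶠ δ in 𝓝[>] (0 : ℝ), ∀ᶠ j : ℕ in atTop, ∀ l : ℕ → Fin 6, l (6 * 2 ^ j) = l 0 →
      (∀ k ≤ 6 * 2 ^ j, l k ∈ apx T Z δ (hp T f {a, b, c}) (S5.pt x j (2 ^ j) k) ∧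
        l k ∉ ({a, b, c} : Set (Fin 6))) →
        ∑ k ∈ Finset.range (6 * 2 ^ j), eps (l k) (l (k + 1)) {d, e} = 1) :
    ∀ x ∈ B, ∀ a b c d e g : Fin 6, [a, b, c, d, e, g].Nodup →
      Base T (Ex T Z f) x {a, b, c} →
      ∀ᶠ δ in 𝓝[>] (0 : ℝ), ∀ᶠ j : ℕ in atTop, ∀ l : ℕ → Fin 6, l (6 * 2 ^ j) = l 0 →
      (∀ k ≤ 6 * 2 ^ j, l k ∈ apx T Z δ (hp T f {a, b, c}) (S5.pt x j (2 ^ j) k) ∧
        l k ∉ ({a, b, c} : Set (Fin 6))) →
        ∑ k ∈ Finset.range (6 * 2 ^ j), eps (l k) (l (k + 1)) {d, e} = 1 := by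
  intro x hx a b c₁ d e g hnd hbase
  by_cases hS : ∃ z ∈ Z, dist z x = 1
  · exact h57 x hx hS a b c₁ d e g hnd hbase
  · push Not at hS
    refine H.ring_off hS (ring_clean h (fun y hy => ?_) hnd hbase.1
      (hnf x hx a b c₁ d e g hnd hbase.1 hS))
    by_contra hcon
    refine hS y (hZ.mem y ?_ (by omega)) hy
    have := dist_triangle y x c
    have := hB x hx
    exact mem_closedBall.2 (by linarith)

/-! ### the bridge to `Harm` -/

theorem Hml.harm_of_hml (h : Irr U T) {W : Set ℂ} (hl : Hml T f W) {z : ℂ} (hz : z ∈ W)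
    (h4 : 4 ≤ (T z).ncard) : Harm T z (f z) := by
  refine ⟨hl.four z hz h4, hl.two z hz h4, hl.fsub z hz h4, hl.h1 z hz h4, ?_⟩
  obtain ⟨y, hy, hyf⟩ := hl.h2 z hz h4
  obtain ⟨q, -, hq1, hq2, hq3, hq4, -⟩ := h.arc_of_sub hy (by
    rw [hyf]; exact hl.fsub z hz h4) univ_mem
  have e : T q = f z := by
    refine Set.eq_of_subset_of_ncard_le (by rw [← hyf]; exact hq3) ?_ (Set.toFinite _)
    rw [hl.two z hz h4]
    exact hq4
  exact ⟨q, hq1, by rw [← e]; exact hq2⟩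

open Classical in
theorem exists_Hml {W : Set ℂ} (hW : ∀ z ∈ W, 4 ≤ (T z).ncard → ∃ A, Harm T z A) :
    ∃ f, Hml T f W := by
  choose! f hf using fun z hz h4 => hW z hz h4
  have key : ∀ z ∈ W, ∀ h4 : 4 ≤ (T z).ncard, Harm T z (f z) := fun z hz h4 => hf z hz h4
  refine ⟨f, fun z hz h4 => (key z hz h4).card, fun z hz h4 => (key z hz h4).cardA,
    fun z hz h4 => (key z hz h4).sub, fun z hz h4 => (key z hz h4).h1, fun z hz h4 => ?_⟩
  obtain ⟨p, hp, hev⟩ := (key z hz h4).arc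
  exact ⟨p, hp, hev.self_of_nhdsWithin (mem_sphere.2 hp)⟩

end Vale.Agent.P032.Carr
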