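import Vale.Agent.P032.S5.H585.R2
import Vale.Agent.P032.S5.H180.Base
import Vale.Agent.P032.S5.H830.RingX
import Vale.Agent.P032.S5.H678.Comp

/-!
# P032: the ring hypothesis of `cech_endX` at a virtual face of an exceptional point
-/

open Set Filter Topology Metric

noncomputable section

namespace Vale.Agent.P032.Carr

open Vale.Agent.P032.S5 Vale.Agent.P032.Six Vale.Agent.P032.H180

variable {U : Fin 6 → Set ℂ} {T : ℂ → Set (Fin 6)} {Z : Set ℂ} {f : ℂ → Set (Fin 6)}
  {c : ℂ} {R : ℝ}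

/-- a face at a point without exceptional points on the circle is a clean base -/
theorem Reg.cbase (G : Reg U T f Z c R) {v : ℂ} {S : Set (Fin 6)} (hv : dist v c ≤ R - 1)
    (hF : S5.Face T v S) (hS : ∀ z ∈ Z, dist z v ≠ 1) : H180.CBase T v S := by
  refine ⟨H180.face_iff.1 hF, fun y hy => ?_, ?_⟩
  · refine G.le3 ?_ fun hyZ => hS y hyZ hy
    have := dist_triangle y v c
    linarith
  · by_cases hvZ : v ∈ Z
    · right
      have h4 := G.hml.four v (G.zs.sub hvZ) (G.zs.four v hvZ)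
      have h2 := G.hml.two v (G.zs.sub hvZ) (G.zs.four v hvZ)
      have hfs := G.hml.fsub v (G.zs.sub hvZ) (G.zs.four v hvZ)
      -- the forbidden pair is not inside the face
      have hnf : ¬ f v ⊆ S := by
        intro hf
        obtain ⟨y, hy, hyf⟩ := G.hml.h2 v (G.zs.sub hvZ) (G.zs.four v hvZ)
        exact hF.2.2 y hy (by rw [hyf]; exact hf)
      obtain ⟨b, hbf, hbS⟩ := Set.not_subset.1 hnf
      have hins : insert b S = T v := by
        refine Set.eq_of_subset_of_ncard_le (insert_subset (hfs hbf) hF.2.1) ?_ (Set.toFinite _)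
        rw [Set.ncard_insert_of_notMem hbS, hF.1, h4]
      obtain ⟨a, haf, hab⟩ : ∃ a ∈ f v, a ≠ b := by
        by_contra hcon
        push Not at hcon
        have h5 : f v ⊆ {b} := fun i hi => hcon i hi
        have := Set.ncard_le_ncard h5 (Set.toFinite _)
        rw [h2, Set.ncard_singleton] at this
        omega
      have haS : a ∈ S := by
        have h6 : a ∈ insert b S := by rw [hins]; exact hfs haf
        exact h6.resolve_left hab
      exact ⟨a, b, haS, hbS, hins.symm, fun y hy hsub =>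
        ⟨G.hml.h1 v (G.zs.sub hvZ) (G.zs.four v hvZ) y hy hsub haf,
          G.hml.h1 v (G.zs.sub hvZ) (G.zs.four v hvZ) y hy hsub hbf⟩⟩
    · left
      refine G.le3 ?_ hvZ
      linarith [dist_nonneg (x := v) (y := c)]

/-- **The ring of `cech_endX`** at a face without exceptional points on the circle -/
theorem Reg.ringV (G : Reg U T f Z c R) {v : ℂ} {S : Set (Fin 6)} (hv : dist v c ≤ R - 2)
    (hF : S5.Face T v S) (hS : ∀ z ∈ Z, dist z v ≠ 1) {d e : Fin 6} (hd : d ∉ S) (he : e ∉ S)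
    (hde : d ≠ e) :
    ∀ δ > 0, ∀ N : ℕ, ∃ n ≥ N, ∃ l : ℕ → Fin 6, (∀ k, l (k + n) = l k) ∧
      (∀ k : ℕ, l k ∈ T (v + cis (2 * Real.pi * k / n))) ∧
      (∀ k, l k ∉ S) ∧
      (∀ k, l k ≠ l (k + 1) → ∃ w ∈ closedBall v 1, dist w (v + cis (2 * Real.pi * k / n)) < δ ∧
        l k ∈ T w ∧ l (k + 1) ∈ T w ∧ w ∉ Ex T Z f (l k) (l (k + 1))) ∧
      ∑ k ∈ Finset.range n, (if ({l k, l (k + 1)} : Finset (Fin 6)) = {d, e} then 1 else 0) =
        (1 : ZMod 2) := by
  refine EndX.ring_of G.irr.nhd hF (fun N => ?_) fun y hy i j _ hi hj _ _ hE => ?_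
  · obtain ⟨N₀, hN₀⟩ := (G.cbase (by linarith) hF hS).ring_cech G.irr hd he hde
    exact ⟨max N N₀, le_max_left _ _, fun l h1 h2 h3 => hN₀ _ (le_max_right _ _) l h1 h2 h3⟩
  · have hyc : dist y c ≤ R - 1 := by
      have := dist_triangle y v c
      linarith
    obtain ⟨t, ht, htS, hev⟩ := G.R2 (by linarith) hF hS hy (fun hF' => by
      have := comp_T G.irr G.zs G.hml G.free (by linarith : dist v c ≤ R - 1) hyc hF hF'
      rw [dist_comm, hy] at this
      linarith) hi hj hE
    exact ⟨t, ht, htS, hev.mono fun y' hy' h1 h2 => (hy' h1 h2).2⟩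

end Vale.Agent.P032.Carr
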