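import Vale.Agent.P032.Carr.Apex

/-!
# P032: states in the presence of harmless four-coloured points

`Hm K Z f δ₀` : the points of the compact set `Z` have four colours, near a point `z ∈ Z` the two
colours of `f z ⊆ K z` are together only at points of `Z`.  The state `lamH` is the state of an
apex cover; it is defined at all points, also at the points of `Z`.
-/

open Set Filter Topology Metric Complex

noncomputable section

namespace Vale.Agent.P032.Carr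

open Vale.Agent.P032.S5

/-- harmless four-coloured points -/
structure Hm (K : ℂ → Set (Fin 6)) (Z : Set ℂ) (f : ℂ → Set (Fin 6)) (δ₀ : ℝ) : Prop where
  compact : IsCompact Z
  usc : ∀ y, ∀ᶠ z in 𝓝 y, K z ⊆ K y
  ne : ∀ y, ∃ i, i ∈ K y
  pos : 0 < δ₀
  four : ∀ z ∈ Z, (K z).ncard = 4
  two : ∀ z ∈ Z, (f z).ncard = 2
  fsub : ∀ z ∈ Z, f z ⊆ K z
  sub : ∀ z ∈ Z, ∀ w, dist w z ≤ δ₀ → K w ⊆ K z
  forb : ∀ z ∈ Z, ∀ w, dist w z ≤ δ₀ → w ∉ Z → ¬ f z ⊆ K w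
  const : ∀ z ∈ Z, ∀ w ∈ Z, dist w z ≤ δ₀ → K w = K z ∧ f w = f z

variable {K : ℂ → Set (Fin 6)} {Z : Set ℂ} {f : ℂ → Set (Fin 6)} {δ δ₀ : ℝ} {x : ℂ} {a : Fin 6}

/-- existence of a scale -/
theorem exists_Hm (hZ : IsCompact Z) (hK : ∀ y, ∀ᶠ z in 𝓝 y, K z ⊆ K y)
    (hne : ∀ y, ∃ i, i ∈ K y) (h4 : ∀ z ∈ Z, (K z).ncard = 4) (h2 : ∀ z ∈ Z, (f z).ncard = 2)
    (hf : ∀ z ∈ Z, f z ⊆ K z) (hforb : ∀ z ∈ Z, ∀ᶠ w in 𝓝 z, w ∉ Z → ¬ f z ⊆ K w)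
    (hc : ∀ z ∈ Z, ∀ᶠ w in 𝓝 z, w ∈ Z → f w = f z) : ∃ δ₀, Hm K Z f δ₀ := by
  have h1 : ∀ z : Z, ∃ r > 0, ∀ w, dist w (z : ℂ) < r → K w ⊆ K z ∧ (w ∉ Z → ¬ f z ⊆ K w) ∧
      (w ∈ Z → f w = f z) := by
    intro z
    obtain ⟨r, hr, h⟩ := Metric.eventually_nhds_iff.1
      ((hK z).and ((hforb z z.2).and (hc z z.2)))
    exact ⟨r, hr, fun w hw => h hw⟩
  choose r hr hrP using h1
  obtain ⟨δ, hδ, hleb⟩ := lebesgue_number_lemma_of_metric (s := Z)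
    (c := fun z : Z => ball (z : ℂ) (r z)) hZ (fun z => isOpen_ball)
    (fun z hz => mem_iUnion.2 ⟨⟨z, hz⟩, mem_ball_self (hr _)⟩)
  have hKZ : ∀ (q : Z) (w : ℂ), w ∈ Z → dist w q < r q → K w = K q := by
    intro q w hw hd
    refine Set.eq_of_subset_of_ncard_le (hrP q w hd).1 ?_ (Set.toFinite _)
    rw [h4 q q.2, h4 w hw]
  have key : ∀ z ∈ Z, ∀ w, dist w z ≤ δ / 2 → K w ⊆ K z ∧ (w ∉ Z → ¬ f z ⊆ K w) ∧
      (w ∈ Z → K w = K z ∧ f w = f z) := by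
    intro z hz w hw
    obtain ⟨q, hq⟩ := hleb z hz
    have hzq : dist z q < r q := hq (mem_ball_self hδ)
    have hwq : dist w q < r q := hq (mem_ball.2 (by linarith))
    have e1 : K z = K q := hKZ q z hz hzq
    have e2 : f z = f q := (hrP q z hzq).2.2 hz
    obtain ⟨p1, p2, p3⟩ := hrP q w hwq
    rw [e1, e2]
    exact ⟨p1, p2, fun hwZ => ⟨hKZ q w hwZ hwq, p3 hwZ⟩⟩
  exact ⟨δ / 2, hZ, hK, hne, by linarith, h4, h2, hf, fun z hz w hw => (key z hz w hw).1,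
    fun z hz w hw => (key z hz w hw).2.1, fun z hz w hw hd => (key z hz w hd).2.2 hw⟩

/-! ### the choice of apexes -/

open Classical in
/-- an apex outside `A` if there is one -/
def pick (S F A : Set (Fin 6)) : Fin 6 :=
  if h : ∃ i, i ∈ S ∧ i ∉ F ∧ i ∉ A then h.choose
  else if h' : ∃ i, i ∈ S ∧ i ∉ F then h'.choose else 0

theorem pick_mem {S F A : Set (Fin 6)} (h : ∃ i, i ∈ S ∧ i ∉ F) :
    pick S F A ∈ S ∧ pick S F A ∉ F := by
  unfold pick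
  by_cases h1 : ∃ i, i ∈ S ∧ i ∉ F ∧ i ∉ A
  · rw [dif_pos h1]
    exact ⟨h1.choose_spec.1, h1.choose_spec.2.1⟩
  · rw [dif_neg h1, dif_pos h]
    exact h.choose_spec

theorem pick_avoid {S F A : Set (Fin 6)} (h : ∃ i, i ∈ S ∧ i ∉ F ∧ i ∉ A) : pick S F A ∉ A := by
  unfold pick
  rw [dif_pos h]
  exact h.choose_spec.2.2

/-- the apex function avoiding `A` where possible -/
def hp (K f : ℂ → Set (Fin 6)) (A : Set (Fin 6)) (z : ℂ) : Fin 6 := pick (K z) (f z) A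

theorem Hm.card_diff (H : Hm K Z f δ₀) {z : ℂ} (hz : z ∈ Z) : (K z \ f z).ncard = 2 := by
  rw [Set.ncard_sdiff (H.fsub z hz) (Set.toFinite _), H.four z hz, H.two z hz]

theorem Hm.apex (H : Hm K Z f δ₀) {z : ℂ} (hz : z ∈ Z) (A : Set (Fin 6)) :
    hp K f A z ∈ K z ∧ hp K f A z ∉ f z := by
  refine pick_mem ?_
  obtain ⟨i, hi⟩ := Set.nonempty_of_ncard_ne_zero (s := K z \ f z) (by rw [H.card_diff hz]; omega)
  exact ⟨i, hi.1, hi.2⟩

theorem Hm.avoid (H : Hm K Z f δ₀) {z : ℂ} (hz : z ∈ Z) (a : Fin 6) : hp K f {a} z ≠ a := by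
  refine pick_avoid (A := {a}) ?_
  by_contra hcon
  push Not at hcon
  have h1 : K z \ f z ⊆ {a} := fun i hi => hcon i hi.1 hi.2
  have h2 := Set.ncard_le_ncard h1 (Set.toFinite _)
  rw [H.card_diff hz, Set.ncard_singleton] at h2
  omega

theorem Hm.faceU (H : Hm K Z f δ₀) {z w : ℂ} (hz : z ∈ Z) (hw : dist w z ≤ δ₀) (hwZ : w ∉ Z)
    {S : Set (Fin 6)} (hS : ∀ i ∈ S, i ∈ K w ∨ (i ∈ K z ∧ i ∉ f z)) : S.ncard ≤ 3 := by
  obtain ⟨t, htf, htw⟩ := Set.not_subset.1 (H.forb z hz w hw hwZ)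
  have h1 : S ⊆ K z \ {t} := by
    intro i hi
    rcases hS i hi with h | h
    · exact ⟨H.sub z hz w hw h, fun hit => htw (by rw [← (show i = t from hit)]; exact h)⟩
    · exact ⟨h.1, fun hit => h.2 (by rw [show i = t from hit]; exact htf)⟩
  refine (Set.ncard_le_ncard h1 (Set.toFinite _)).trans ?_
  rw [Set.ncard_sdiff_singleton_of_mem (H.fsub z hz htf), H.four z hz]

theorem Hm.sc (H : Hm K Z f δ₀) (hδ : 0 < δ) (hδ' : δ ≤ δ₀ / 2) (A : Set (Fin 6)) :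
    Sc K Z δ (hp K f A) := by
  have hδ₀ := H.pos
  refine ⟨hδ, fun z hz z' hz' hd => ?_, fun z hz w hw hwZ => ?_⟩
  · obtain ⟨e1, e2⟩ := H.const z' hz' z hz (by linarith)
    unfold hp
    rw [e1, e2]
  · refine H.faceU hz (by linarith) hwZ fun i hi => ?_
    rcases hi with rfl | hi
    · exact Or.inr (H.apex hz A)
    · exact Or.inl hi

theorem Hm.union (H : Hm K Z f δ₀) {δ' : ℝ} (hδ : δ ≤ δ₀ / 2) (hδ' : δ' ≤ δ₀ / 2)
    (A A' : Set (Fin 6)) : ∀ z ∈ Z, ∀ z' ∈ Z, ∀ w, dist w z ≤ δ → dist w z' ≤ δ' → w ∉ Z →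
      (insert (hp K f A z) (insert (hp K f A' z') (K w))).ncard ≤ 3 := by
  have hδ₀ := H.pos
  intro z hz z' hz' w hw hw' hwZ
  obtain ⟨e1, e2⟩ := H.const z hz z' hz' (by
    have := dist_triangle_left z' z w
    linarith)
  refine H.faceU hz (by linarith) hwZ fun i hi => ?_
  rcases hi with rfl | rfl | hi
  · exact Or.inr (H.apex hz A)
  · right
    rw [← e1, ← e2]
    exact H.apex hz' A'
  · exact Or.inl hi

/-! ### the state -/

/-- at most three colours off `Z` -/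
def Rg (K : ℂ → Set (Fin 6)) (Z : Set ℂ) (x : ℂ) : Prop :=
  ∀ u ∈ closedBall x 1, u ∉ Z → (K u).ncard ≤ 3

/-- the state -/
def lamH (K : ℂ → Set (Fin 6)) (Z : Set ℂ) (f : ℂ → Set (Fin 6)) (δ₀ : ℝ) (a : Fin 6) (x : ℂ)
    (s : Finset (Fin 6)) : ZMod 2 := lamS (apx K Z (δ₀ / 2) (hp K f {a})) a x s

theorem Hm.nice (H : Hm K Z f δ₀) (hr : Rg K Z x) (hδ : 0 < δ) (hδ' : δ ≤ δ₀ / 2)
    (A : Set (Fin 6)) : Nice (apx K Z δ (hp K f A)) x :=
  (H.sc hδ hδ' A).nice H.compact H.usc H.ne hr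

theorem Hm.av (H : Hm K Z f δ₀) (ha : Av K x a) (δ : ℝ) : Av (apx K Z δ (hp K f {a})) x a :=
  Av_apx ha fun _ hz _ => H.avoid hz a

theorem Hm.lam_eq (H : Hm K Z f δ₀) (hr : Rg K Z x) (ha : Av K x a) (hδ : 0 < δ)
    (hδ' : δ ≤ δ₀ / 2) {A : Set (Fin 6)} (hA : Av (apx K Z δ (hp K f A)) x a)
    {s : Finset (Fin 6)} (has : a ∈ s) :
    lamS (apx K Z δ (hp K f A)) a x s = lamH K Z f δ₀ a x s := by
  have hδ₀ := H.pos
  exact (H.sc hδ hδ' A).eq (H.sc (by linarith) le_rfl {a}) H.compact H.usc H.ne hr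
    (H.union hδ' le_rfl A {a}) hA (H.av ha _) has

/-- **The state is locally constant.** -/
theorem Hm.loc (H : Hm K Z f δ₀) (hr : Rg K Z x) (ha : Av K x a) :
    ∀ᶠ x' in 𝓝 x, Av K x' a → ∀ s : Finset (Fin 6), a ∈ s →
      lamH K Z f δ₀ a x' s = lamH K Z f δ₀ a x s := by
  have hδ₀ := H.pos
  filter_upwards [lamS_loc (H.nice hr (by linarith) le_rfl {a}) (H.av ha (δ₀ / 2))] with x' hx' ha'
  exact hx' (H.av ha' _)

/-- **Euler** -/
theorem Hm.euler (H : Hm K Z f δ₀) (hr : Rg K Z x) (ha : Av K x a) {b : Fin 6} (hab : a ≠ b) :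
    ∑ c ∈ Finset.univ \ {a, b}, lamH K Z f δ₀ a x (insert c {a, b}) = 0 := by
  have hδ₀ := H.pos
  exact lamS_euler (H.nice hr (by linarith) le_rfl {a}) (H.av ha (δ₀ / 2)) hab

/-- a scale for a property of the exceptional points on the circle -/
theorem Hm.scale (H : Hm K Z f δ₀) {P : Set (Fin 6) → Set (Fin 6) → Prop}
    (hP : ∀ z ∈ Z, dist z x = 1 → P (K z) (f z)) : ∃ δ > 0, δ ≤ δ₀ / 2 ∧
      ∀ z ∈ Z, (∃ y, dist y x = 1 ∧ dist y z ≤ δ) → P (K z) (f z) := by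
  have hδ₀ := H.pos
  have hc : IsCompact {z | z ∈ Z ∧ ¬ P (K z) (f z)} := by
    refine H.compact.of_isClosed_subset ?_ fun z hz => hz.1
    rw [← isOpen_compl_iff, isOpen_iff_mem_nhds]
    intro y hy
    by_cases hyZ : y ∈ Z
    · filter_upwards [ball_mem_nhds y H.pos] with z hz hzZ
      obtain ⟨e1, e2⟩ := H.const y hyZ z hzZ.1 (mem_ball.1 hz).le
      exact hy ⟨hyZ, fun h => hzZ.2 (by rw [e1, e2]; exact h)⟩
    · filter_upwards [H.compact.isClosed.isOpen_compl.mem_nhds hyZ] with z hz hzZ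
      exact hz hzZ.1
  have hd : Disjoint {z | z ∈ Z ∧ ¬ P (K z) (f z)} (sphere x 1) := by
    rw [Set.disjoint_left]
    intro z hz hzS
    exact hz.2 (hP z hz.1 hzS)
  obtain ⟨η, hη, hdis⟩ := hd.exists_thickenings hc isClosed_sphere
  refine ⟨min (η / 2) (δ₀ / 2), lt_min (by linarith) (by linarith), min_le_right _ _, ?_⟩
  rintro z hz ⟨y, hy, hyz⟩
  by_contra hcon
  have h1 : y ∈ thickening η {z | z ∈ Z ∧ ¬ P (K z) (f z)} := by
    rw [mem_thickening_iff]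
    exact ⟨z, ⟨hz, hcon⟩, by have := hyz.trans (min_le_left _ _); linarith⟩
  have h2 : y ∈ thickening η (sphere x 1) := self_subset_thickening hη _ (mem_sphere.2 hy)
  exact Set.disjoint_left.1 hdis h1 h2

/-- **Agreement** of the states at two colours -/
theorem Hm.agree (H : Hm K Z f δ₀) (hr : Rg K Z x) {b : Fin 6}
    (hab : ∀ y, dist y x = 1 → ∃ c ∈ K y, c ≠ a ∧ c ≠ b)
    (hz : ∀ z ∈ Z, dist z x = 1 → ∃ i, i ∈ K z ∧ i ∉ f z ∧ i ∉ ({a, b} : Set (Fin 6)))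
    {s : Finset (Fin 6)} (has : a ∈ s) (hbs : b ∈ s) :
    lamH K Z f δ₀ a x s = lamH K Z f δ₀ b x s := by
  obtain ⟨δ, hδ, hδ', hd⟩ := H.scale (x := x)
    (P := fun S F => ∃ i, i ∈ S ∧ i ∉ F ∧ i ∉ ({a, b} : Set (Fin 6))) hz
  have ha : Av K x a := fun y hy => (hab y hy).imp fun _ h => ⟨h.1, h.2.1⟩
  have hb : Av K x b := fun y hy => (hab y hy).imp fun _ h => ⟨h.1, h.2.2⟩
  have hav : ∀ y, dist y x = 1 → ∃ c ∈ apx K Z δ (hp K f {a, b}) y, c ≠ a ∧ c ≠ b := by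
    intro y hy
    by_cases hn : ∃ z ∈ Z, dist y z ≤ δ
    · obtain ⟨z, hzZ, hyz⟩ := hn
      refine ⟨hp K f {a, b} z, Or.inr ⟨z, hzZ, hyz, rfl⟩, ?_⟩
      have h1 : hp K f {a, b} z ∉ ({a, b} : Set (Fin 6)) := pick_avoid (hd z hzZ ⟨y, hy, hyz⟩)
      simpa [not_or] using h1
    · push Not at hn
      rw [apx_far hn]
      exact hab y hy
  have hA : Av (apx K Z δ (hp K f {a, b})) x a := fun y hy =>
    (hav y hy).imp fun _ h => ⟨h.1, h.2.1⟩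
  have hB : Av (apx K Z δ (hp K f {a, b})) x b := fun y hy =>
    (hav y hy).imp fun _ h => ⟨h.1, h.2.2⟩
  rw [← H.lam_eq hr ha hδ hδ' hA has, ← H.lam_eq hr hb hδ hδ' hB hbs]
  exact lamS_agree (H.nice hr hδ hδ' _) hav has hbs

end Vale.Agent.P032.Carr
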