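import Vale.Agent.P032.Carr.St

/-!
# P032: support and boundary of the state in the presence of harmless four-coloured points
-/

open Set Filter Topology Metric Complex

noncomputable section

namespace Vale.Agent.P032.Carr

open Vale.Agent.P032.S5

variable {K : ℂ → Set (Fin 6)} {Z : Set ℂ} {f : ℂ → Set (Fin 6)} {δ δ₀ : ℝ} {x : ℂ} {a : Fin 6}

/-- `s` is a face at `u` -/
def Face (K : ℂ → Set (Fin 6)) (Z : Set ℂ) (f : ℂ → Set (Fin 6)) (u : ℂ) (s : Set (Fin 6)) :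
    Prop := s ⊆ K u ∧ (u ∈ Z → ¬ f u ⊆ s)

/-- uniform radius -/
theorem Hm.unif (H : Hm K Z f δ₀) {Q : ℂ → ℂ → Prop}
    (hQ : ∀ z ∈ Z, ∃ r > 0, ∀ w, dist w z < r → Q z w)
    (ht : ∀ z ∈ Z, ∀ q ∈ Z, ∀ w, dist z q ≤ δ₀ → Q q w → Q z w) :
    ∃ δ > 0, ∀ z ∈ Z, ∀ w, dist w z ≤ δ → Q z w := by
  choose! r hr hrQ using hQ
  obtain ⟨δ, hδ, hleb⟩ := lebesgue_number_lemma_of_metric (s := Z)
    (c := fun z : Z => ball (z : ℂ) (min (r z) δ₀)) H.compact (fun z => isOpen_ball)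
    (fun z hz => mem_iUnion.2 ⟨⟨z, hz⟩, mem_ball_self (lt_min (hr z hz) H.pos)⟩)
  refine ⟨δ / 2, by linarith, fun z hz w hw => ?_⟩
  obtain ⟨q, hq⟩ := hleb z hz
  have h1 : dist z q < min (r q) δ₀ := hq (mem_ball_self hδ)
  have h2 : dist w q < min (r q) δ₀ := hq (mem_ball.2 (by linarith))
  exact ht z hz q q.2 w (h1.le.trans (min_le_right _ _))
    (hrQ q q.2 w (h2.trans_le (min_le_left _ _)))

/-- near the exceptional points in the disc the set `s` is contained in a palette of the apex cover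
only if it is a face at the exceptional point -/
theorem Hm.near_face (H : Hm K Z f δ₀) {z w : ℂ} (hz : z ∈ Z) (hw : dist w z ≤ δ₀) (hwZ : w ∉ Z)
    {s : Set (Fin 6)} {A : Set (Fin 6)} (hs : ∀ t ∈ s, t ∈ K w ∨ t = hp K f A z) :
    Face K Z f z s := by
  refine ⟨fun t ht => ?_, fun _ hf => H.forb z hz w hw hwZ fun t ht => ?_⟩
  · rcases hs t ht with h | rfl
    · exact H.sub z hz w hw h
    · exact (H.apex hz A).1
  · rcases hs t (hf ht) with h | rfl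
    · exact h
    · exact absurd ht (H.apex hz A).2

theorem Hm.hp_const (H : Hm K Z f δ₀) {z q : ℂ} (hz : z ∈ Z) (hq : q ∈ Z) (h : dist z q ≤ δ₀)
    (A : Set (Fin 6)) : hp K f A z = hp K f A q := by
  obtain ⟨e1, e2⟩ := H.const q hq z hz h
  unfold hp
  rw [e1, e2]

/-- **Support.** -/
theorem Hm.supp (H : Hm K Z f δ₀) (hr : Rg K Z x) (ha : Av K x a) {s : Finset (Fin 6)}
    (has : a ∈ s) (hs3 : 2 ≤ s.card)
    (hs : ∀ u ∈ closedBall x 1, Face K Z f u (s : Set (Fin 6)) →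
      ∀ᶠ w in 𝓝[closedBall x 1 \ {u}] u, a ∉ K w) : lamH K Z f δ₀ a x s = 0 := by
  classical
  have hδ₀ := H.pos
  obtain ⟨δ₁, hδ₁, hu1⟩ := H.unif (Q := fun z w => w ∈ closedBall x 1 → w ∉ Z → a ∈ K w →
      ¬ ∀ t ∈ s, t ∈ K w ∨ t = hp K f {a} z) (fun z hz => by
    by_cases hzx : z ∈ closedBall x 1
    · by_cases hface : Face K Z f z (s : Set (Fin 6))
      · obtain ⟨r, hr, h⟩ := Metric.eventually_nhds_iff.1
          (eventually_nhdsWithin_iff.1 (hs z hzx hface))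
        refine ⟨r, hr, fun w hw hwx hwZ haw _ => h hw ⟨hwx, ?_⟩ haw⟩
        rintro rfl
        exact hwZ hz
      · refine ⟨δ₀, hδ₀, fun w hw _ hwZ _ hall => hface ?_⟩
        exact H.near_face hz hw.le hwZ (A := {a}) fun t ht => hall t (by exact_mod_cast ht)
    · obtain ⟨r, hr, h⟩ := Metric.isOpen_iff.1 isClosed_closedBall.isOpen_compl z hzx
      exact ⟨r, hr, fun w hw hwx => absurd hwx (h hw)⟩)
    (fun z hz q hq w hzq h => by
      rw [H.hp_const hz hq hzq]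
      exact h)
  have hδ : 0 < min δ₁ (δ₀ / 2) := lt_min hδ₁ (by linarith)
  have hδ' : min δ₁ (δ₀ / 2) ≤ δ₀ / 2 := min_le_right _ _
  have hA := H.av ha (min δ₁ (δ₀ / 2))
  rw [← H.lam_eq hr ha hδ hδ' hA has]
  refine lamS_supp (H.nice hr hδ hδ' _) hA has fun u hu hsu => ?_
  obtain ⟨b, hb, hba⟩ : ∃ b ∈ s, b ≠ a := by
    by_contra hcon
    push Not at hcon
    have : s ⊆ {a} := fun b hb => Finset.mem_singleton.2 (hcon b hb)
    have := Finset.card_le_card this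
    rw [Finset.card_singleton] at this
    omega
  refine ⟨a, has, ⟨b, hsu b hb, hba, hba⟩, ?_⟩
  by_cases hn : ∃ z ∈ Z, dist u z ≤ min δ₁ (δ₀ / 2)
  · exfalso
    obtain ⟨z, hz, huz⟩ := hn
    have S := H.sc hδ hδ' {a}
    by_cases huZ : u ∈ Z
    · exact H.avoid huZ a (S.sub_Z huZ (hsu a has)).symm
    · have h1 : ∀ t ∈ s, t ∈ K u ∨ t = hp K f {a} z := fun t ht =>
        (S.sub hz huz (hsu t ht)).symm
      refine hu1 z hz u (huz.trans (min_le_left _ _)) hu huZ ?_ h1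
      exact (h1 a has).resolve_right (H.avoid hz a).symm
  · push Not at hn
    have huZ : u ∉ Z := fun h => by
      have := hn u h
      rw [dist_self] at this
      exact absurd hδ (not_lt.2 this.le)
    filter_upwards [hs u hu ⟨fun t ht => by
      have := hsu t (by exact_mod_cast ht)
      rwa [apx_far hn] at this, fun h => absurd h huZ⟩] with w hw
    rintro (⟨h1, -⟩ | ⟨z, hz, -, h2⟩)
    · exact hw h1
    · exact H.avoid hz a h2

/-- **Boundary** for a set `T` of three colours which can be avoided on the circle -/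
theorem lamS_windT {x : ℂ} (hK : Nice K x) {a b c d e f : Fin 6}
    (hx : ∀ y, dist y x = 1 → ∃ t ∈ K y, t ∉ ({a, b, c} : Set (Fin 6)))
    (hnd : [a, b, c, d, e, f].Nodup)
    (hno : ∀ u ∈ closedBall x 1, ¬ (d ∈ K u ∧ e ∈ K u ∧ f ∈ K u)) {v : ZMod 2}
    (hW : ∀ᶠ j : ℕ in atTop, ∀ h : ℕ → Fin 6, h (6 * 2 ^ j) = h 0 →
      (∀ k ≤ 6 * 2 ^ j, h k ∈ K (pt x j (2 ^ j) k) ∧ h k ∉ ({a, b, c} : Set (Fin 6))) →
        ∑ k ∈ Finset.range (6 * 2 ^ j), eps (h k) (h (k + 1)) {d, e} = v) :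
    lamS K a x {a, d, e} + lamS K b x {b, d, e} + lamS K c x {c, d, e} = v := by
  classical
  have hav : ∀ t ∈ ({a, b, c} : Set (Fin 6)), Av K x t := fun t ht y hy =>
    (hx y hy).imp fun z hz => ⟨hz.1, fun h => hz.2 (h ▸ ht)⟩
  have hA := hav a (by simp)
  have hB := hav b (by simp)
  have hC := hav c (by simp)
  obtain ⟨δ, ⟨⟨⟨hδa, hδb⟩, hδc⟩, hδ0⟩⟩ := ((((lamS_all hK hA).and (lamS_all hK hB)).and
    (lamS_all hK hC)).and self_mem_nhdsWithin).exists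
  have hδ0 : 0 < δ := hδ0
  obtain ⟨ε, hε, hsupp⟩ := exists_supp (K' := K) (x := x) (s := {d, e, f})
    (fun p _ => mem_nhdsWithin_of_mem_nhds (hK.usc p)) (fun u hu => by
      by_contra hcon
      push Not at hcon
      exact hno u hu ⟨hcon d (by simp), hcon e (by simp), hcon f (by simp)⟩)
  obtain ⟨j, hj, hjW⟩ := (((tendsto_order.1 tendsto_mesh).2 _ (lt_min hδ0 hε)).and hW).exists
  obtain ⟨c₀, b₀, hc₀, hb₀⟩ := exists_sel hK.ne (x := x) (A := ({a, b, c} : Set (Fin 6))) hx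
  have hl : Lb K x δ j (sl x c₀ b₀ j) :=
    sl_Lb (fun p _ => hc₀ p) (fun p hp => (hb₀ p hp).1) hδ0 j
  have hring : ∀ k, sl x c₀ b₀ j (2 ^ j) k ∈ K (pt x j (2 ^ j) k) ∧
      sl x c₀ b₀ j (2 ^ j) k ∉ ({a, b, c} : Set (Fin 6)) := fun k => by
    rw [sl_ring]
    exact hb₀ _ (pt_ring x j k)
  have hrt : ∀ t ∈ ({a, b, c} : Set (Fin 6)), ∀ k ≤ 6 * 2 ^ j, sl x c₀ b₀ j (2 ^ j) k ≠ t :=
    fun t ht k _ h => (hring k).2 (h ▸ ht)
  have hde : d ≠ e := by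
    intro h
    subst h
    simp at hnd
  have e1 := bd_Ch (sl x c₀ b₀ j) (2 ^ j) (6 * 2 ^ j) hl.per hl.cen (Finset.card_pair hde)
  rw [hjW (fun k => sl x c₀ b₀ j (2 ^ j) k) (hl.per _ le_rfl) (fun k _ => hring k)] at e1
  have hjd : (3 : ℝ) / 2 ^ j < δ := hj.trans_le (min_le_left _ _)
  have ea := hδa {a, d, e} (by simp) j hjd _ hl (hrt a (by simp))
  have eb := hδb {b, d, e} (by simp) j hjd _ hl (hrt b (by simp))
  have ec := hδc {c, d, e} (by simp) j hjd _ hl (hrt c (by simp))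
  have ef := hsupp j (hj.trans_le (min_le_right _ _)) (sl x c₀ b₀ j) (fun i hi k _ => by
    unfold sl
    split_ifs with h
    · subst h
      exact (hb₀ _ (pt_ring x j k)).1
    · exact hc₀ _)
  have hnd' := hnd
  simp only [List.nodup_cons, List.mem_cons, List.not_mem_nil, or_false, not_or] at hnd'
  unfold bd at e1
  rw [setlem a b c d e f hnd, Finset.sum_insert (by
      simp only [Finset.mem_insert, Finset.mem_singleton]; tauto), Finset.sum_insert (by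
      simp only [Finset.mem_insert, Finset.mem_singleton]; tauto), Finset.sum_insert (by
      simp only [Finset.mem_singleton]; tauto), Finset.sum_singleton] at e1
  have hf : (insert f {d, e} : Finset (Fin 6)) = {d, e, f} := by
    ext x
    simp only [Finset.mem_insert, Finset.mem_singleton]
    tauto
  rw [hf, ef, add_zero] at e1
  rw [← ea, ← eb, ← ec, ← e1, add_assoc]

/-- no face `s` in the disc: no palette of the apex cover contains `s` -/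
theorem Hm.noface (H : Hm K Z f δ₀) (A : Set (Fin 6)) {s : Set (Fin 6)} (hs : 2 ≤ s.ncard)
    (hno : ∀ u ∈ closedBall x 1, ¬ Face K Z f u s) :
    ∃ δ₁ > 0, ∀ δ > 0, δ ≤ δ₁ → δ ≤ δ₀ / 2 → ∀ u ∈ closedBall x 1,
      ¬ s ⊆ apx K Z δ (hp K f A) u := by
  have hδ₀ := H.pos
  obtain ⟨δ₁, hδ₁, hu1⟩ := H.unif (Q := fun z w => w ∈ closedBall x 1 → w ∉ Z →
      ¬ ∀ t ∈ s, t ∈ K w ∨ t = hp K f A z) (fun z hz => by
    by_cases hzx : z ∈ closedBall x 1
    · exact ⟨δ₀, hδ₀, fun w hw _ hwZ hall => hno z hzx (H.near_face hz hw.le hwZ hall)⟩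
    · obtain ⟨r, hr, h⟩ := Metric.isOpen_iff.1 isClosed_closedBall.isOpen_compl z hzx
      exact ⟨r, hr, fun w hw hwx => absurd hwx (h hw)⟩)
    (fun z hz q hq w hzq h => by
      rw [H.hp_const hz hq hzq]
      exact h)
  refine ⟨δ₁, hδ₁, fun δ hδ hδ1 hδ' u hu hsu => ?_⟩
  have S := H.sc hδ hδ' A
  by_cases hn : ∃ z ∈ Z, dist u z ≤ δ
  · obtain ⟨z, hz, huz⟩ := hn
    by_cases huZ : u ∈ Z
    · have h1 := Set.ncard_le_ncard (hsu.trans (S.sub_Z huZ)) (Set.toFinite _)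
      rw [Set.ncard_singleton] at h1
      omega
    · exact hu1 z hz u (huz.trans hδ1) hu huZ fun t ht => (S.sub hz huz (hsu ht)).symm
  · push Not at hn
    rw [apx_far hn] at hsu
    refine hno u hu ⟨hsu, fun h => ?_⟩
    have := hn u h
    rw [dist_self] at this
    exact absurd hδ (not_lt.2 this.le)

/-- **Boundary** at a face `{a, b, c}` -/
theorem Hm.windT (H : Hm K Z f δ₀) (hr : Rg K Z x) {b c d e g : Fin 6}
    (hnd : [a, b, c, d, e, g].Nodup)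
    (hx : ∀ y, dist y x = 1 → ∃ t ∈ K y, t ∉ ({a, b, c} : Set (Fin 6)))
    (hz : ∀ z ∈ Z, dist z x = 1 → ∃ i, i ∈ K z ∧ i ∉ f z ∧ i ∉ ({a, b, c} : Set (Fin 6)))
    (hno : ∀ u ∈ closedBall x 1, ¬ Face K Z f u {d, e, g}) {v : ZMod 2}
    (hW : ∀ᶠ δ in 𝓝[>] (0 : ℝ), ∀ᶠ j : ℕ in atTop, ∀ h : ℕ → Fin 6, h (6 * 2 ^ j) = h 0 →
      (∀ k ≤ 6 * 2 ^ j, h k ∈ apx K Z δ (hp K f {a, b, c}) (pt x j (2 ^ j) k) ∧
        h k ∉ ({a, b, c} : Set (Fin 6))) →
        ∑ k ∈ Finset.range (6 * 2 ^ j), eps (h k) (h (k + 1)) {d, e} = v) :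
    lamH K Z f δ₀ a x {a, d, e} + lamH K Z f δ₀ b x {b, d, e} +
      lamH K Z f δ₀ c x {c, d, e} = v := by
  have hδ₀ := H.pos
  obtain ⟨δ₂, hδ₂, hδ₂', hd⟩ := H.scale (x := x)
    (P := fun S F => ∃ i, i ∈ S ∧ i ∉ F ∧ i ∉ ({a, b, c} : Set (Fin 6))) hz
  have hdeg : 2 ≤ ({d, e, g} : Set (Fin 6)).ncard := by
    have h1 : ({d, e} : Set (Fin 6)).ncard = 2 := Set.ncard_pair (by
      intro h; subst h; simp at hnd)
    rw [← h1]
    exact Set.ncard_le_ncard (by intro t ht; simp at ht ⊢; tauto) (Set.toFinite _)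
  obtain ⟨δ₁, hδ₁, hno'⟩ := H.noface {a, b, c} hdeg hno
  obtain ⟨δ, hWδ, hδ, hδm⟩ := (hW.and (Ioo_mem_nhdsGT
    (lt_min hδ₂ (lt_min hδ₁ (show 0 < δ₀ / 2 by linarith))))).exists
  have hδ2 : δ ≤ δ₂ := hδm.le.trans (min_le_left _ _)
  have hδ1 : δ ≤ δ₁ := hδm.le.trans ((min_le_right _ _).trans (min_le_left _ _))
  have hδ' : δ ≤ δ₀ / 2 := hδm.le.trans ((min_le_right _ _).trans (min_le_right _ _))
  have hav : ∀ y, dist y x = 1 → ∃ t ∈ apx K Z δ (hp K f {a, b, c}) y,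
      t ∉ ({a, b, c} : Set (Fin 6)) := by
    intro y hy
    by_cases hn : ∃ z ∈ Z, dist y z ≤ δ
    · obtain ⟨z, hzZ, hyz⟩ := hn
      exact ⟨hp K f {a, b, c} z, Or.inr ⟨z, hzZ, hyz, rfl⟩,
        pick_avoid (hd z hzZ ⟨y, hy, hyz.trans hδ2⟩)⟩
    · push Not at hn
      rw [apx_far hn]
      exact hx y hy
  have hAv : ∀ t ∈ ({a, b, c} : Set (Fin 6)), Av (apx K Z δ (hp K f {a, b, c})) x t ∧ Av K x t :=
    fun t ht => ⟨fun y hy => (hav y hy).imp fun i hi => ⟨hi.1, fun h => hi.2 (h ▸ ht)⟩,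
      fun y hy => (hx y hy).imp fun i hi => ⟨hi.1, fun h => hi.2 (h ▸ ht)⟩⟩
  have hA := hAv a (by simp)
  have hB := hAv b (by simp)
  have hC := hAv c (by simp)
  rw [← H.lam_eq hr hA.2 hδ hδ' hA.1 (by simp), ← H.lam_eq hr hB.2 hδ hδ' hB.1 (by simp),
    ← H.lam_eq hr hC.2 hδ hδ' hC.1 (by simp)]
  refine lamS_windT (H.nice hr hδ hδ' _) hav hnd (fun u hu h => hno' δ hδ hδ1 hδ' u hu ?_) hWδ
  rintro t (rfl | rfl | rfl)
  · exact h.1
  · exact h.2.1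
  · exact h.2.2

end Vale.Agent.P032.Carr
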